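import Vale.Agent.P025.R2.H802.Patch

/-!
# The inner side of `τ` is a union of discs (P025, S4 of G-START), part 3
-/

open Polynomial Filter Topology

universe u

namespace P025H802

open Vale.Agent.P019P P025H373 P025H621

section tau

variable {C K : Type u} [NormedField C] [IsUltrametricDist C] [Field K] [Algebra C K] [CFF C K]

omit [IsUltrametricDist C] [CFF C K] in
theorem transcendental_of_nc [IsAlgClosed C] {x : K} (hx : ∀ c : C, x ≠ algebraMap C K c) :
    Transcendental C x := by
  intro halg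
  have h1 := IsAlgClosed.degree_eq_one_of_irreducible C (minpoly.irreducible halg.isIntegral)
  obtain ⟨c, hc⟩ := minpoly.mem_range_of_degree_eq_one C x h1
  exact hx c hc.symm

omit [IsUltrametricDist C] in
theorem Val.inv_of_notMem {P : Plk C K} {z : K} (h : z ∉ Mge P 0) : Val P z⁻¹ 0 := by
  have h0 : z ≠ 0 := by
    rintro rfl
    exact h (zero_mem _)
  have h1 : ord P z < 0 := by
    by_contra h2
    exact h (Or.inr (not_lt.mp h2))
  have h2 := ord_inv P z
  rw [Val, map_zero, sub_zero]
  right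
  rw [h2]
  omega

theorem norm_sum_lt {ι : Type*} (s : Finset ι) (f : ι → C) {R : ℝ} (hR : 0 < R)
    (h : ∀ i ∈ s, ‖f i‖ < R) : ‖∑ i ∈ s, f i‖ < R := by
  classical
  induction s using Finset.induction_on with
  | empty => simpa using hR
  | insert a s ha ih =>
    rw [Finset.sum_insert ha]
    exact (IsUltrametricDist.norm_add_le_max _ _).trans_lt (max_lt
      (h a (Finset.mem_insert_self _ _)) (ih fun i hi => h i (Finset.mem_insert_of_mem hi)))

theorem inn_tau [IsAlgClosed C] (t : K) (ht : Transcendental C t) (Δ : Finset C)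
    (hne : Δ.Nonempty) (b : C) (hb : b ≠ 0)
    (hΔ : ∀ δ ∈ Δ, ∀ δ' ∈ Δ, δ ≠ δ' → ‖b‖ < ‖δ - δ'‖) :
    ∃ τ : K, Transcendental C τ ∧ Inn τ = ⋃ δ ∈ Δ, Disc t δ ‖b‖ := by
  classical
  have hnc : ∀ c : C, t ≠ algebraMap C K c := by
    rintro c rfl
    exact ht (isAlgebraic_algebraMap c)
  have hb0 : 0 < ‖b‖ := norm_pos_iff.mpr hb
  have hbK : algebraMap C K b ≠ 0 := by rwa [Ne, map_eq_zero]
  set S : K := ∑ δ ∈ Δ, algebraMap C K b / (t - algebraMap C K δ) with hS
  have htd : ∀ δ : C, t - algebraMap C K δ ≠ 0 := fun δ => sub_ne_zero.mpr (hnc δ)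
  -- value at a finite place outside `Δ`
  have hval : ∀ (P : Plk C K) (x : C), Val P t x → (∀ δ ∈ Δ, x ≠ δ) →
      Val P S (∑ δ ∈ Δ, b / (x - δ)) := by
    intro P x hx hne
    refine Val.sum _ fun δ hδ => ?_
    exact (Val.const P b).div (hx.sub (Val.const P δ)) (sub_ne_zero.mpr (hne δ hδ))
  -- at the places over `Δ`
  have hover : ∀ (P : Plk C K), ∀ δ ∈ Δ, Val P t δ → Val P S⁻¹ 0 ∧ S ≠ 0 := by
    intro P δ hδ hP
    set y : K := t - algebraMap C K δ with hy
    have hy0 : y ≠ 0 := htd δ
    have hyv : Val P y 0 := by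
      have := hP.sub (Val.const P δ)
      rwa [sub_self] at this
    set R : K := ∑ δ' ∈ Δ.erase δ, algebraMap C K b / (t - algebraMap C K δ') with hR
    have hRv : Val P R (∑ δ' ∈ Δ.erase δ, b / (δ - δ')) := by
      refine Val.sum _ fun δ' hδ' => ?_
      rw [Finset.mem_erase] at hδ'
      exact (Val.const P b).div (hP.sub (Val.const P δ')) (sub_ne_zero.mpr (Ne.symm hδ'.1))
    have e1 : S = (algebraMap C K b + y * R) / y := by
      rw [hS, ← Finset.add_sum_erase _ _ hδ, ← hR, ← hy, eq_div_iff hy0, add_mul,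
        div_mul_cancel₀ _ hy0, mul_comm R y]
    have h1 : Val P (algebraMap C K b + y * R) b := by
      have := (Val.const P b).add (hyv.mul hRv)
      rwa [zero_mul, add_zero] at this
    have h2 : algebraMap C K b + y * R ≠ 0 := h1.ne_zero hb
    refine ⟨?_, ?_⟩
    · rw [e1, inv_div]
      have := hyv.div h1 hb
      rwa [zero_div] at this
    · rw [e1]
      exact div_ne_zero h2 hy0
  obtain ⟨δ₀, hδ₀⟩ := hne
  obtain ⟨P₀, hP₀⟩ := exists_place_over (K := K) hnc δ₀
  have hS0 : S ≠ 0 := (hover P₀ δ₀ hδ₀ hP₀).2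
  refine ⟨S⁻¹, transcendental_of_nc ?_, ?_⟩
  · intro c hc
    have h1 := (hover P₀ δ₀ hδ₀ hP₀).1
    have h2 : Val P₀ S⁻¹ c := by
      rw [hc]
      exact Val.const P₀ c
    have h3 := h2.unique h1
    rw [h3, map_zero] at hc
    exact inv_ne_zero hS0 hc
  · ext P
    simp only [Set.mem_iUnion]
    constructor
    · rintro ⟨c, hc, hcv⟩
      rw [sub_zero] at hc
      -- `S` has no value of norm `< 1`
      have hSv : ∀ σ : C, Val P S σ → ¬ ‖σ‖ < 1 := by
        intro σ hσ hlt
        have h1 : Val P (S * S⁻¹) (σ * c) := hσ.mul hcv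
        rw [mul_inv_cancel₀ hS0] at h1
        have h2 := h1.unique (Val.one P)
        have h3 : ‖σ * c‖ = 1 := by rw [h2, norm_one]
        rw [norm_mul] at h3
        have h4 := mul_le_of_le_one_right (norm_nonneg σ) hc
        linarith
      by_cases htP : t ∈ Mge P 0
      swap
      · exfalso
        refine hSv 0 ?_ (by rw [norm_zero]; exact one_pos)
        have h1 : Val P t⁻¹ 0 := Val.inv_of_notMem htP
        have ht0 : t ≠ 0 := by
          rintro rfl
          exact htP (zero_mem _)
        have h2 : ∀ δ : C, Val P (algebraMap C K b / (t - algebraMap C K δ)) 0 := by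
          intro δ
          have h3 : Val P (1 - algebraMap C K δ * t⁻¹) 1 := by
            have := (Val.one P).sub ((Val.const P δ).mul h1)
            rwa [mul_zero, sub_zero] at this
          have h4 := ((Val.const P b).mul h1).div h3 one_ne_zero
          rw [mul_zero, zero_div] at h4
          have e1 : algebraMap C K b / (t - algebraMap C K δ) =
              algebraMap C K b * t⁻¹ / (1 - algebraMap C K δ * t⁻¹) := by
            have h5 := htd δ
            have h6 : 1 - algebraMap C K δ * t⁻¹ ≠ 0 := h3.ne_zero one_ne_zero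
            rw [div_eq_div_iff h5 h6]
            field_simp
          rwa [e1]
        have h3 := Val.sum (P := P) Δ (y := fun δ => algebraMap C K b / (t - algebraMap C K δ))
          (c := fun _ => 0) (fun δ _ => h2 δ)
        rwa [Finset.sum_const_zero] at h3
      obtain ⟨x, hx⟩ := exists_Val P htP
      by_contra hcon
      push Not at hcon
      have hfar : ∀ δ ∈ Δ, ‖b‖ < ‖x - δ‖ := by
        intro δ hδ
        by_contra hle
        exact hcon δ hδ ⟨x, not_lt.mp hle, hx⟩
      have hxne : ∀ δ ∈ Δ, x ≠ δ := by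
        rintro δ hδ rfl
        have := hfar x hδ
        rw [sub_self, norm_zero] at this
        linarith
      refine hSv _ (hval P x hx hxne) ?_
      refine norm_sum_lt _ _ one_pos fun δ hδ => ?_
      rw [norm_div, div_lt_one (hb0.trans (hfar δ hδ))]
      exact hfar δ hδ
    · rintro ⟨δ, hδ, x, hxδ, hx⟩
      by_cases hxne : ∀ δ ∈ Δ, x ≠ δ
      swap
      · push Not at hxne
        obtain ⟨δ', hδ', rfl⟩ := hxne
        exact ⟨0, by simp, (hover P x hδ' hx).1⟩
      have hσ := hval P x hx hxne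
      have hlt : ‖∑ δ' ∈ Δ.erase δ, b / (x - δ')‖ < 1 := by
        refine norm_sum_lt _ _ one_pos fun δ' hδ' => ?_
        rw [Finset.mem_erase] at hδ'
        have h1 := hΔ δ hδ δ' hδ'.2 (Ne.symm hδ'.1)
        have e1 : x - δ' = (δ - δ') + (x - δ) := by ring
        have h2 : ‖x - δ'‖ = ‖δ - δ'‖ := by
          rw [e1]
          exact norm_add_eq (hxδ.trans_lt h1)
        rw [norm_div, h2, div_lt_one (hb0.trans h1)]
        exact h1
      have hge : 1 ≤ ‖b / (x - δ)‖ := by
        have h1 : 0 < ‖x - δ‖ := norm_pos_iff.mpr (sub_ne_zero.mpr (hxne δ hδ))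
        rw [norm_div, one_le_div h1]
        exact hxδ
      have hnorm : ‖∑ δ' ∈ Δ, b / (x - δ')‖ = ‖b / (x - δ)‖ := by
        rw [← Finset.add_sum_erase _ _ hδ]
        exact norm_add_eq (hlt.trans_le hge)
      have hσ0 : ∑ δ' ∈ Δ, b / (x - δ') ≠ 0 := by
        intro h0
        rw [h0, norm_zero] at hnorm
        linarith
      refine ⟨_, ?_, hσ.inv hσ0⟩
      rw [sub_zero, norm_inv, hnorm]
      exact inv_le_one_of_one_le₀ hge

end tau

end P025H802
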