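import Vale.Agent.P025.R2.H802.S2
import Vale.Agent.P025.R2.H802.Tau

/-!
# S2, S3, S4 of G-START, in the form of `H621/Spec7`
-/

open Polynomial Filter Topology

universe u

namespace P025H802P

open Vale.Agent.P019P P025H373 P025H621

section S2

variable {C K : Type u} [NormedField C] [IsUltrametricDist C] [IsAlgClosed C] [Field K]
  [Algebra C K] [CFF C K]

theorem exists_coeffs (t : K) (ht : Transcendental C t) (h : K) :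
    ∃ (N : ℕ) (c : Fin N → RatFunc C), ∀ b : C,
      (∀ P : Plk C K, t - algebraMap C K b ∈ Mge P 1 → h ∈ Mge P 0) →
      (∀ i, (c i).denom.eval b ≠ 0) ∧
      ∀ R : ℝ, 0 ≤ R → ((∀ P : Plk C K, t - algebraMap C K b ∈ Mge P 1 → InBall P h 0 R) ↔
        ∀ i, ‖(c i).eval (RingHom.id C) b‖ ≤ R ^ ((i : ℕ) + 1)) :=
  P025H802.exists_coeffs t ht h

end S2

section S3

variable {C K : Type u} [NontriviallyNormedField C] [IsUltrametricDist C]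
  [IsAlgClosed C] [Field K] [Algebra C K] [CFF C K]

/-- overconvergence -/
theorem exists_bigger_disc (hv : ∀ r : ℝ, 0 ≤ r → ∃ x : C, ‖x‖ = r)
    (t : K) (ht : Transcendental C t) (a : C) (r : ℝ) (hr : 0 < r)
    (h : K) (ε : ℝ) (hε : 0 < ε) (hh : ∀ P ∈ Disc t a r, InBall P h 0 ε) :
    ∃ r₁, r < r₁ ∧ ∀ P ∈ Disc t a r₁, InBall P h 0 (2 * ε) :=
  P025H802.exists_bigger_disc hv t a r hr h (P025H802.exists_coeffs t ht h) ε hε hh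

/-- outer version -/
theorem exists_outer (hv : ∀ r : ℝ, 0 ≤ r → ∃ x : C, ‖x‖ = r)
    (t : K) (ht : Transcendental C t) (a₀ : C) (r₀ : ℝ) (hr₀ : 0 < r₀)
    (h : K) (ε : ℝ) (hε : 0 < ε) (hh : ∀ P ∉ Disc t a₀ r₀, InBall P h 0 ε) :
    ∃ (Δ : Finset C) (r : ℝ), Δ.Nonempty ∧ 0 < r ∧ r < r₀ ∧ (∀ δ ∈ Δ, ‖δ - a₀‖ ≤ r₀) ∧
      (∀ δ ∈ Δ, ∀ δ' ∈ Δ, δ ≠ δ' → ‖δ - δ'‖ = r₀) ∧
      ∀ P : Plk C K, (∀ δ ∈ Δ, P ∉ Disc t δ r) → InBall P h 0 (2 * ε) :=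
  P025H802.exists_outer hv t a₀ r₀ hr₀ h (P025H802.exists_coeffs t ht h) ε hε hh

/-- small discs -/
theorem powOn_small {p : ℕ} (hp : p ≠ 0) (t : K) (ht : Transcendental C t) (f : K) (hf : f ≠ 0)
    (hd : DivN C p f) (ε : ℝ) (hε : 0 < ε) (a : C) : ∃ r, 0 < r ∧ PowOn p ε (Disc t a r) f :=
  P025H802.powOn_small hp t ht (P025H802.exists_coeffs t ht) f hf hd ε hε a

/-- outside of large discs -/
theorem powOn_large {p : ℕ} (hp : p ≠ 0) (t : K) (ht : Transcendental C t) (f : K) (hf : f ≠ 0)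
    (hd : DivN C p f) (ε : ℝ) (hε : 0 < ε) (a : C) :
    ∃ R, 0 < R ∧ PowOn p ε (Disc t a R)ᶜ f :=
  P025H802.powOn_large hp t ht (fun t ht => P025H802.exists_coeffs t ht) f hf hd ε hε a

end S3

section S4

variable {C K : Type u} [NontriviallyNormedField C] [IsUltrametricDist C]
  [IsAlgClosed C] [Field K] [Algebra C K] [CFF C K]

/-- approximate powers on finitely many disjoint discs of the same radius glue. -/
theorem powOn_iUnion (hv : ∀ r : ℝ, 0 ≤ r → ∃ x : C, ‖x‖ = r) {p : ℕ}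
    (t : K) (ht : Transcendental C t) (f : K) (r : ℝ) (hr : 0 < r)
    (Δ : Finset C) (hΔ : ∀ δ ∈ Δ, ∀ δ' ∈ Δ, δ ≠ δ' → r < ‖δ - δ'‖) (ε : ℝ) (hε : 0 < ε)
    (hε1 : ε < 1) (h : ∀ δ ∈ Δ, PowOn p ε (Disc t δ r) f) :
    PowOn p ε (⋃ δ ∈ Δ, Disc t δ r) f :=
  P025H802.powOn_iUnion hv t ht (P025H802.exists_coeffs t ht) f r hr Δ hΔ ε hε hε1 h

/-- the function `τ` with `{|τ| ≤ 1} = ⋃ Disc t δ ‖b‖`. -/
theorem inn_tau (t : K) (ht : Transcendental C t) (Δ : Finset C) (hne : Δ.Nonempty) (b : C)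
    (hb : b ≠ 0) (hΔ : ∀ δ ∈ Δ, ∀ δ' ∈ Δ, δ ≠ δ' → ‖b‖ < ‖δ - δ'‖) :
    ∃ τ : K, Transcendental C τ ∧ Inn τ = ⋃ δ ∈ Δ, Disc t δ ‖b‖ :=
  P025H802.inn_tau t ht Δ hne b hb hΔ

end S4

end P025H802P
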