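import Vale.Agent.P025.R2.H373.Gauss1

/-!
# Polynomials and rational functions on discs (P025, S3 of G-START)
-/

open Polynomial Filter Topology

namespace P025H802

open P025H373

section poly

universe u

variable {C : Type u} [NormedField C] [IsUltrametricDist C]

theorem norm_add_eq {x y : C} (h : ‖y‖ < ‖x‖) : ‖x + y‖ = ‖x‖ := by
  rw [IsUltrametricDist.norm_add_eq_max_of_norm_ne_norm (ne_of_gt h), max_eq_left h.le]

theorem norm_sub_eq {x y : C} (h : ‖y‖ < ‖x‖) : ‖x - y‖ = ‖x‖ := by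
  rw [sub_eq_add_neg]
  exact norm_add_eq (by rwa [norm_neg])

variable [IsAlgClosed C]

/-- maximum modulus on the unit circle -/
theorem exists_eval_eq_gp (D : C[X]) : ∃ x : C, ‖x‖ = 1 ∧ ‖D.eval x‖ = gp D := by
  by_cases hD : D = 0
  · exact ⟨1, norm_one, by simp [hD]⟩
  obtain ⟨c, S, Q, hc, hS, hS1, hSr, hQ, -, -, hDe⟩ := exists_factor D hD
  have hgS : gp S = 1 := gp_monic_of_le hS hS1
  have hgQ : gp Q = 1 := gp_eq_one_of_sub_lt hQ
  have hXS : (X * S).Monic := monic_X.mul hS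
  have hdeg : (X * S - 1 : C[X]).degree ≠ 0 := by
    have h1 : (1 : C[X]).degree < (X * S).degree := by
      rw [degree_one, degree_mul, degree_X]
      have : (0 : WithBot ℕ) ≤ S.degree := zero_le_degree_iff.mpr hS.ne_zero
      exact lt_of_lt_of_le (by norm_num) (le_add_of_nonneg_right this)
    rw [degree_sub_eq_left_of_degree_lt h1]
    intro h0
    rw [h0, degree_one] at h1
    exact lt_irrefl _ h1
  obtain ⟨x, hx⟩ := IsAlgClosed.exists_root _ hdeg
  have hx1 : x * S.eval x = 1 := by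
    have := hx
    rw [IsRoot.def, eval_sub, eval_mul, eval_X, eval_one, sub_eq_zero] at this
    exact this
  have hxle : ‖x‖ ≤ 1 := by
    by_contra hlt
    rw [not_le] at hlt
    -- `‖S x‖ ≥ 1`
    have h1 : 1 ≤ ‖S.eval x‖ := by
      have h2 : S.eval x = (S.roots.map (fun b => x - b)).prod := by
        exact (IsAlgClosed.splits S).eval_eq_prod_roots_of_monic hS x
      rw [h2]
      have h3 : ∀ s : Multiset C, (∀ b ∈ s, ‖b‖ ≤ 1) → 1 ≤ ‖(s.map (fun b => x - b)).prod‖ := by
        intro s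
        induction s using Multiset.induction_on with
        | empty => intro _; simp
        | cons b s ih =>
          intro hb
          rw [Multiset.map_cons, Multiset.prod_cons, norm_mul]
          have h4 := ih (fun b' hb' => hb b' (Multiset.mem_cons_of_mem hb'))
          have h5 : ‖x - b‖ = ‖x‖ := by
            have hb1 := hb b (Multiset.mem_cons_self b s)
            have : ‖b‖ < ‖x‖ := lt_of_le_of_lt hb1 hlt
            exact norm_sub_eq this
          rw [h5]
          exact one_le_mul_of_one_le_of_one_le hlt.le h4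
      exact h3 _ hSr
    have h2 : ‖x‖ * ‖S.eval x‖ = 1 := by rw [← norm_mul, hx1, norm_one]
    nlinarith
  have hSle : ‖S.eval x‖ ≤ 1 := (norm_eval_le S hxle).trans hS1
  have hmul : ‖x‖ * ‖S.eval x‖ = 1 := by rw [← norm_mul, hx1, norm_one]
  have hx1' : ‖x‖ = 1 := by
    refine le_antisymm hxle ?_
    rw [← hmul]
    exact mul_le_of_le_one_right (norm_nonneg _) hSle
  have hS1' : ‖S.eval x‖ = 1 := by rwa [hx1', one_mul] at hmul
  have hQ1 : ‖Q.eval x‖ = 1 := by
    have h1 := norm_eval_le (Q - 1) hxle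
    have h2 : ‖Q.eval x - 1‖ < 1 := by
      rw [eval_sub, eval_one] at h1
      exact h1.trans_lt hQ
    have h3 : Q.eval x = 1 + (Q.eval x - 1) := by ring
    rw [h3]
    have : ‖Q.eval x - 1‖ < ‖(1 : C)‖ := by rwa [norm_one]
    rw [norm_add_eq this, norm_one]
  refine ⟨x, hx1', ?_⟩
  rw [hDe, eval_mul, eval_mul, eval_C, norm_mul, norm_mul, hS1', hQ1, gp_mul, gp_mul, gp_C, hgS,
    hgQ]

/-- Gauss norm of `D` on the circle of radius `‖b‖` about `a` -/
theorem gp_comp_le {D : C[X]} {a b : C} {R : ℝ} (h : ∀ x, ‖x - a‖ = ‖b‖ → ‖D.eval x‖ ≤ R) :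
    gp (D.comp (Polynomial.C b * X + Polynomial.C a)) ≤ R := by
  obtain ⟨y, hy, hy'⟩ := exists_eval_eq_gp (D.comp (Polynomial.C b * X + Polynomial.C a))
  rw [← hy', eval_comp, eval_add, eval_mul, eval_C, eval_X, eval_C]
  refine h _ ?_
  rw [add_sub_cancel_right, norm_mul, hy, mul_one]

/-- growth of a polynomial bounded by `R` on the circle of radius `‖b‖` about `a` -/
theorem eval_le_growth {D : C[X]} {a b : C} (hb : b ≠ 0) {R s : ℝ} (hs : ‖b‖ ≤ s)
    (h : ∀ x, ‖x - a‖ = ‖b‖ → ‖D.eval x‖ ≤ R) {x : C} (hx : ‖x - a‖ ≤ s) :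
    ‖D.eval x‖ ≤ (s / ‖b‖) ^ D.natDegree * R := by
  have hb0 : 0 < ‖b‖ := norm_pos_iff.mpr hb
  have hg := gp_comp_le h
  have hg0 : 0 ≤ gp (D.comp (Polynomial.C b * X + Polynomial.C a)) := gp_nonneg _
  have hR : 0 ≤ R := hg0.trans hg
  set E := D.comp (Polynomial.C b * X + Polynomial.C a) with hE
  have hdeg : E.natDegree ≤ D.natDegree := by
    rw [hE]
    refine natDegree_comp_le.trans ?_
    refine (Nat.mul_le_mul_left _ (natDegree_linear_le)).trans ?_
    rw [mul_one]
  have hxe : D.eval x = E.eval ((x - a) / b) := by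
    rw [hE, eval_comp, eval_add, eval_mul, eval_C, eval_X, eval_C, mul_div_cancel₀ _ hb,
      sub_add_cancel]
  have hq : 1 ≤ s / ‖b‖ := (one_le_div hb0).mpr hs
  have hy : ‖(x - a) / b‖ ≤ s / ‖b‖ := by
    rw [norm_div]
    exact div_le_div_of_nonneg_right hx hb0.le
  rw [hxe, eval_eq_sum_range]
  refine IsUltrametricDist.norm_sum_le_of_forall_le_of_nonneg (by positivity) fun i hi => ?_
  rw [norm_mul, norm_pow, mul_comm]
  have hi' : i ≤ D.natDegree := (Nat.lt_succ_iff.mp (Finset.mem_range.mp hi)).trans hdeg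
  refine mul_le_mul ?_ ((norm_coeff_le E i).trans hg) (norm_nonneg _) (by positivity)
  exact (pow_le_pow_left₀ (norm_nonneg _) hy i).trans (pow_le_pow_right₀ hq hi')

/-- maximum principle -/
theorem eval_le_of_circle {D : C[X]} {a b : C} (hb : b ≠ 0) {R : ℝ}
    (h : ∀ x, ‖x - a‖ = ‖b‖ → ‖D.eval x‖ ≤ R) {x : C} (hx : ‖x - a‖ ≤ ‖b‖) :
    ‖D.eval x‖ ≤ R := by
  have := eval_le_growth hb le_rfl h hx
  rwa [div_self (norm_ne_zero_iff.mpr hb), one_pow, one_mul] at this

omit [IsUltrametricDist C] [IsAlgClosed C] in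
theorem prod_norm_eq (s : Multiset C) (x : C) (ρ : ℝ) (h : ∀ β ∈ s, ‖x - β‖ = ρ) :
    ‖(s.map (fun β => x - β)).prod‖ = ρ ^ Multiset.card s := by
  induction s using Multiset.induction_on with
  | empty => simp
  | cons b s ih =>
    rw [Multiset.map_cons, Multiset.prod_cons, norm_mul, Multiset.card_cons,
      ih (fun β hβ => h β (Multiset.mem_cons_of_mem hβ)), h b (Multiset.mem_cons_self b s), pow_succ,
      mul_comm]

omit [IsUltrametricDist C] [IsAlgClosed C] in
theorem prod_norm_ge (s : Multiset C) (x : C) {ρ : ℝ} (hρ : 0 ≤ ρ) (h : ∀ β ∈ s, ρ ≤ ‖x - β‖) :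
    ρ ^ Multiset.card s ≤ ‖(s.map (fun β => x - β)).prod‖ := by
  induction s using Multiset.induction_on with
  | empty => simp
  | cons b s ih =>
    rw [Multiset.map_cons, Multiset.prod_cons, norm_mul, Multiset.card_cons, pow_succ, mul_comm]
    exact mul_le_mul (h b (Multiset.mem_cons_self b s))
      (ih (fun β hβ => h β (Multiset.mem_cons_of_mem hβ))) (by positivity) (norm_nonneg _)

omit [IsUltrametricDist C] [IsAlgClosed C] in
theorem prod_norm_congr (s : Multiset C) (x y : C) (h : ∀ β ∈ s, ‖x - β‖ = ‖y - β‖) :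
    ‖(s.map (fun β => x - β)).prod‖ = ‖(s.map (fun β => y - β)).prod‖ := by
  induction s using Multiset.induction_on with
  | empty => simp
  | cons b s ih =>
    rw [Multiset.map_cons, Multiset.prod_cons, norm_mul, Multiset.map_cons, Multiset.prod_cons,
      norm_mul, h b (Multiset.mem_cons_self b s),
      ih (fun β hβ => h β (Multiset.mem_cons_of_mem hβ))]

/-- a polynomial without zeros on a disc has constant norm there -/
theorem norm_eval_const {B : C[X]} {a : C} {s : ℝ} (h : ∀ β, B.IsRoot β → s < ‖β - a‖) {x : C}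
    (hx : ‖x - a‖ ≤ s) : ‖B.eval x‖ = ‖B.eval a‖ := by
  by_cases hB : B = 0
  · simp [hB]
  rw [(IsAlgClosed.splits B).eval_eq_prod_roots, (IsAlgClosed.splits B).eval_eq_prod_roots,
    norm_mul, norm_mul]
  congr 1
  refine prod_norm_congr _ _ _ fun β hβ => ?_
  have h1 := h β ((mem_roots hB).mp hβ)
  have e1 : x - β = (x - a) - (β - a) := by ring
  rw [e1, norm_sub_rev (x - a), norm_sub_eq (hx.trans_lt h1), norm_sub_rev a β]

/-- the norm outside of a disc containing all zeros -/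
theorem norm_eval_out {B : C[X]} {a : C} {s : ℝ} (h : ∀ β, B.IsRoot β → ‖β - a‖ ≤ s)
    {x : C} (hx : s < ‖x - a‖) : ‖B.eval x‖ = ‖B.leadingCoeff‖ * ‖x - a‖ ^ B.natDegree := by
  by_cases hB : B = 0
  · simp [hB]
  rw [(IsAlgClosed.splits B).eval_eq_prod_roots, norm_mul]
  congr 1
  rw [prod_norm_eq _ _ ‖x - a‖ fun β hβ => ?_]
  · rw [(IsAlgClosed.splits B).natDegree_eq_card_roots]
  · have h1 := h β ((mem_roots hB).mp hβ)
    have e1 : x - β = (x - a) - (β - a) := by ring
    rw [e1, norm_sub_eq (h1.trans_lt hx)]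

theorem norm_eval_ge {B : C[X]} {x : C} {ρ : ℝ} (hρ : 0 ≤ ρ)
    (h : ∀ β, B.IsRoot β → ρ ≤ ‖x - β‖) : ‖B.leadingCoeff‖ * ρ ^ B.natDegree ≤ ‖B.eval x‖ := by
  by_cases hB : B = 0
  · simp [hB]
  rw [(IsAlgClosed.splits B).eval_eq_prod_roots, norm_mul,
    (IsAlgClosed.splits B).natDegree_eq_card_roots]
  refine mul_le_mul_of_nonneg_left ?_ (norm_nonneg _)
  exact prod_norm_ge _ _ hρ fun β hβ => h β ((mem_roots hB).mp hβ)

omit [IsUltrametricDist C] [IsAlgClosed C] in
theorem ratFunc_eval (f : RatFunc C) (x : C) :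
    f.eval (RingHom.id C) x = f.num.eval x / f.denom.eval x := by
  rw [RatFunc.eval, eval₂_id, eval₂_id]

end poly

end P025H802
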