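import Vale.Agent.P025.R2.H621.Defs
import Vale.Agent.P025.R2.H802.Poly

/-!
# Function theory on discs of places (P025, S3 of G-START)
-/

open Polynomial Filter Topology

universe u

namespace P025H802

open Vale.Agent.P019P P025H373 P025H621

section basic

variable {C K : Type u} [NormedField C] [Field K] [Algebra C K] [CFF C K]

theorem algebraMap_mem_Mge (P : Plk C K) (c : C) : algebraMap C K c ∈ Mge P 0 := by
  right
  rw [ord_const]

theorem eq_zero_of_mem {P : Plk C K} {c : C} (h : algebraMap C K c ∈ Mge P 1) : c = 0 := by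
  rcases h with h | h
  · exact (map_eq_zero _).mp h
  · rw [ord_const] at h
    omega

theorem val_unique {P : Plk C K} {t : K} {b b' : C} (h : t - algebraMap C K b ∈ Mge P 1)
    (h' : t - algebraMap C K b' ∈ Mge P 1) : b = b' := by
  have h1 := Submodule.sub_mem _ h' h
  have e1 : t - algebraMap C K b' - (t - algebraMap C K b) = algebraMap C K (b - b') := by
    rw [map_sub]; ring
  rw [e1] at h1
  exact sub_eq_zero.mp (eq_zero_of_mem h1)

theorem mem_zero_of_val {P : Plk C K} {t : K} {b : C} (h : t - algebraMap C K b ∈ Mge P 1) :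
    t ∈ Mge P 0 := by
  have h1 := Submodule.add_mem _ (Mge_mono P (by norm_num : (0 : ℤ) ≤ 1) h)
    (algebraMap_mem_Mge P b)
  rwa [sub_add_cancel] at h1

theorem mem_zero_of_inBall {P : Plk C K} {z : K} {a : C} {r : ℝ} (h : InBall P z a r) :
    z ∈ Mge P 0 := by
  obtain ⟨c, -, h⟩ := h
  exact mem_zero_of_val h

/-- every element regular at `P` has a value at `P` -/
theorem exists_val (P : Plk C K) {z : K} (h : z ∈ Mge P 0) :
    ∃ b : C, z - algebraMap C K b ∈ Mge P 1 := by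
  obtain ⟨c, hc⟩ := exists_cst P ((mem_iff_ord P z).2 h)
  refine ⟨c, ?_⟩
  rcases hc with hc | hc
  · left
    rw [← hc, sub_self]
  · right
    omega

theorem bad_finite (h : K) : {P : Plk C K | h ∉ Mge P 0}.Finite := by
  by_cases h0 : h = 0
  · have h1 : {P : Plk C K | h ∉ Mge P 0} = ∅ := by
      ext P
      simp [h0]
    rw [h1]
    exact Set.finite_empty
  · refine (dv_finite (k := C) h0).subset fun P hP => ?_
    intro h1
    exact hP (Or.inr (le_of_eq h1.symm))

/-- S2: values of the coefficients of a characteristic polynomial (as in `exists_coeffs`) -/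
def HasCoeffs (t h : K) : Prop :=
  ∃ (N : ℕ) (c : Fin N → RatFunc C), ∀ b : C,
    (∀ P : Plk C K, t - algebraMap C K b ∈ Mge P 1 → h ∈ Mge P 0) →
      (∀ i, (c i).denom.eval b ≠ 0) ∧
      ∀ R : ℝ, 0 ≤ R → ((∀ P : Plk C K, t - algebraMap C K b ∈ Mge P 1 → InBall P h 0 R) ↔
        ∀ i, ‖(c i).eval (RingHom.id C) b‖ ≤ R ^ ((i : ℕ) + 1))

end basic

section S3

variable {C K : Type u} [NormedField C] [IsUltrametricDist C]
  [IsAlgClosed C] [Field K] [Algebra C K] [CFF C K]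

/-- overconvergence -/
theorem exists_bigger_disc (hv : ∀ r : ℝ, 0 ≤ r → ∃ x : C, ‖x‖ = r)
    (t : K) (a : C) (r : ℝ) (hr : 0 < r)
    (h : K) (hco : HasCoeffs (C := C) t h) (ε : ℝ) (hε : 0 < ε)
    (hh : ∀ P ∈ Disc t a r, InBall P h 0 ε) :
    ∃ r₁, r < r₁ ∧ ∀ P ∈ Disc t a r₁, InBall P h 0 (2 * ε) := by
  classical
  obtain ⟨N, c, hc⟩ := hco
  have hreg : ∀ b : C, ‖b - a‖ ≤ r → ∀ P : Plk C K, t - algebraMap C K b ∈ Mge P 1 →
      h ∈ Mge P 0 := fun b hb P hP => mem_zero_of_inBall (hh P ⟨b, hb, hP⟩)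
  have hfin := bad_finite (C := C) h
  have h1 : ∀ᶠ s in 𝓝[>] r, ∀ P ∈ hfin.toFinset, P ∉ Disc t a s := by
    rw [Finset.eventually_all]
    intro P hP
    rw [Set.Finite.mem_toFinset] at hP
    by_cases hb : ∃ b : C, t - algebraMap C K b ∈ Mge P 1
    · obtain ⟨b, hb⟩ := hb
      have hlt : r < ‖b - a‖ := by
        by_contra hle
        rw [not_lt] at hle
        exact hP (hreg b hle P hb)
      filter_upwards [Ioo_mem_nhdsGT hlt] with s hs
      rintro ⟨b', hb', hb''⟩
      rw [val_unique hb'' hb] at hb'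
      exact absurd hb' (not_le.mpr hs.2)
    · refine Eventually.of_forall fun s => ?_
      rintro ⟨b', -, hb''⟩
      exact hb ⟨b', hb''⟩
  have h2 : ∀ᶠ s in 𝓝[>] r, ∀ i, (∀ β, (c i).denom.IsRoot β → s < ‖β - a‖) ∧
      (s / r) ^ (c i).num.natDegree ≤ 2 := by
    rw [eventually_all]
    intro i
    refine Eventually.and ?_ ?_
    · have h3 : ∀ᶠ s in 𝓝[>] r, ∀ β ∈ (c i).denom.roots.toFinset, s < ‖β - a‖ := by
        rw [Finset.eventually_all]
        intro β hβ
        rw [Multiset.mem_toFinset, mem_roots (c i).denom_ne_zero] at hβ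
        have hlt : r < ‖β - a‖ := by
          by_contra hle
          rw [not_lt] at hle
          exact (hc β (hreg β hle)).1 i hβ
        filter_upwards [Ioo_mem_nhdsGT hlt] with s hs
        exact hs.2
      filter_upwards [h3] with s hs β hβ
      exact hs β (by rwa [Multiset.mem_toFinset, mem_roots (c i).denom_ne_zero])
    · have h4 : Tendsto (fun s : ℝ => (s / r) ^ (c i).num.natDegree) (𝓝 r) (𝓝 1) := by
        have h5 : Tendsto (fun s : ℝ => (s / r) ^ (c i).num.natDegree) (𝓝 r)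
            (𝓝 ((r / r) ^ (c i).num.natDegree)) :=
          ((continuous_id.div_const r).pow _).tendsto r
        rwa [div_self hr.ne', one_pow] at h5
      have h6 : ∀ᶠ s in 𝓝 r, (s / r) ^ (c i).num.natDegree < 2 :=
        h4.eventually_lt_const (by norm_num)
      filter_upwards [nhdsWithin_le_nhds h6] with s hs
      exact hs.le
  have h3 : ∀ᶠ s in 𝓝[>] r, r < s := self_mem_nhdsWithin
  obtain ⟨s, hs1, hs2, hs3⟩ := (h1.and (h2.and h3)).exists
  refine ⟨s, hs3, ?_⟩
  rintro P ⟨b, hb, hPb⟩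
  have hregb : ∀ P' : Plk C K, t - algebraMap C K b ∈ Mge P' 1 → h ∈ Mge P' 0 := by
    intro P' hP'
    by_contra hbad
    exact hs1 P' (by rwa [Set.Finite.mem_toFinset]) ⟨b, hb, hP'⟩
  refine ((hc b hregb).2 (2 * ε) (by positivity)).2 (fun i => ?_) P hPb
  obtain ⟨b0, hb0⟩ := hv r hr.le
  have hb00 : b0 ≠ 0 := by
    rintro rfl
    rw [norm_zero] at hb0
    exact hr.ne hb0
  obtain ⟨hroot, hgr⟩ := hs2 i
  have hda : 0 < ‖(c i).denom.eval a‖ :=
    norm_pos_iff.mpr ((hc a (hreg a (by rw [sub_self, norm_zero]; exact hr.le))).1 i)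
  have hA : ∀ x, ‖x - a‖ = ‖b0‖ →
      ‖(c i).num.eval x‖ ≤ ε ^ ((i : ℕ) + 1) * ‖(c i).denom.eval a‖ := by
    intro x hx
    rw [hb0] at hx
    have h4 := ((hc x (hreg x hx.le)).2 ε hε.le).1 (fun P' hP' => hh P' ⟨x, hx.le, hP'⟩) i
    have h5 : ‖(c i).denom.eval x‖ = ‖(c i).denom.eval a‖ :=
      norm_eval_const hroot (hx.le.trans hs3.le)
    rw [ratFunc_eval, norm_div, h5, div_le_iff₀ hda] at h4
    exact h4
  have h6 := eval_le_growth hb00 (s := s) (by rw [hb0]; exact hs3.le) hA hb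
  rw [hb0] at h6
  have h7 : ‖(c i).denom.eval b‖ = ‖(c i).denom.eval a‖ := norm_eval_const hroot hb
  rw [ratFunc_eval, norm_div, h7, div_le_iff₀ hda, mul_pow]
  refine h6.trans ?_
  rw [← mul_assoc]
  refine mul_le_mul_of_nonneg_right ?_ hda.le
  refine mul_le_mul_of_nonneg_right ?_ (by positivity)
  refine hgr.trans ?_
  rw [pow_succ]
  nlinarith [one_le_pow₀ (M₀ := ℝ) (by norm_num : (1 : ℝ) ≤ 2) (n := (i : ℕ))]

/-- a finite set has a maximal `r`-separated subset -/
theorem exists_separated {X : Type*} [PseudoMetricSpace X] (S : Finset X) (r : ℝ) (hr : 0 < r) :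
    ∃ Δ ⊆ S, (∀ δ ∈ Δ, ∀ δ' ∈ Δ, δ ≠ δ' → r ≤ dist δ δ') ∧ ∀ s ∈ S, ∃ δ ∈ Δ, dist s δ < r := by
  classical
  induction S using Finset.induction_on with
  | empty => exact ⟨∅, subset_rfl, by simp, by simp⟩
  | insert a S ha ih =>
    obtain ⟨Δ, hΔ, h1, h2⟩ := ih
    by_cases hd : ∃ δ ∈ Δ, dist a δ < r
    · refine ⟨Δ, hΔ.trans (Finset.subset_insert _ _), h1, fun s hs => ?_⟩
      rw [Finset.mem_insert] at hs
      rcases hs with rfl | hs
      · exact hd
      · exact h2 s hs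
    · push Not at hd
      refine ⟨insert a Δ, Finset.insert_subset_insert _ hΔ, ?_, ?_⟩
      · intro δ hδ δ' hδ' hne
        rw [Finset.mem_insert] at hδ hδ'
        rcases hδ with rfl | hδ <;> rcases hδ' with rfl | hδ'
        · exact absurd rfl hne
        · exact hd _ hδ'
        · rw [dist_comm]; exact hd _ hδ
        · exact h1 _ hδ _ hδ' hne
      · intro s hs
        rw [Finset.mem_insert] at hs
        rcases hs with rfl | hs
        · exact ⟨s, Finset.mem_insert_self _ _, by rw [dist_self]; exact hr⟩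
        · obtain ⟨δ, hδ, h3⟩ := h2 s hs
          exact ⟨δ, Finset.mem_insert_of_mem hδ, h3⟩

/-- outer version: `h` small off the disc `|t - a₀| ≤ r₀` is small off finitely many slightly
smaller discs in different residue directions. -/
theorem exists_outer (hv : ∀ r : ℝ, 0 ≤ r → ∃ x : C, ‖x‖ = r)
    (t : K) (a₀ : C) (r₀ : ℝ) (hr₀ : 0 < r₀)
    (h : K) (hco : HasCoeffs (C := C) t h) (ε : ℝ) (hε : 0 < ε)
    (hh : ∀ P ∉ Disc t a₀ r₀, InBall P h 0 ε) :
    ∃ (Δ : Finset C) (r : ℝ), Δ.Nonempty ∧ 0 < r ∧ r < r₀ ∧ (∀ δ ∈ Δ, ‖δ - a₀‖ ≤ r₀) ∧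
      (∀ δ ∈ Δ, ∀ δ' ∈ Δ, δ ≠ δ' → ‖δ - δ'‖ = r₀) ∧
      ∀ P : Plk C K, (∀ δ ∈ Δ, P ∉ Disc t δ r) → InBall P h 0 (2 * ε) := by
  classical
  obtain ⟨N, c, hc⟩ := hco
  -- places over points outside of the disc
  have hout : ∀ b : C, r₀ < ‖b - a₀‖ → ∀ P : Plk C K, t - algebraMap C K b ∈ Mge P 1 →
      P ∉ Disc t a₀ r₀ := by
    rintro b hb P hP ⟨b', hb', hb''⟩
    rw [val_unique hb'' hP] at hb'
    exact absurd hb' (not_le.mpr hb)
  have hreg : ∀ b : C, r₀ < ‖b - a₀‖ → ∀ P : Plk C K, t - algebraMap C K b ∈ Mge P 1 →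
      h ∈ Mge P 0 := fun b hb P hP => mem_zero_of_inBall (hh P (hout b hb P hP))
  have hfin := bad_finite (C := C) h
  -- bad points
  set vals : Finset C := hfin.toFinset.image
    (fun P => if hP : ∃ b : C, t - algebraMap C K b ∈ Mge P 1 then hP.choose else a₀) with hvals
  set S : Finset C := insert a₀ (vals ∪ Finset.univ.biUnion fun i => (c i).denom.roots.toFinset)
    with hS
  have hSle : ∀ s ∈ S, ‖s - a₀‖ ≤ r₀ := by
    intro s hs
    rw [hS, Finset.mem_insert, Finset.mem_union] at hs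
    rcases hs with rfl | hs | hs
    · rw [sub_self, norm_zero]; exact hr₀.le
    · rw [hvals, Finset.mem_image] at hs
      obtain ⟨P, hP, hs⟩ := hs
      rw [Set.Finite.mem_toFinset] at hP
      by_cases hb : ∃ b : C, t - algebraMap C K b ∈ Mge P 1
      · rw [dif_pos hb] at hs
        have h1 := hb.choose_spec
        rw [hs] at h1
        by_contra hlt
        rw [not_le] at hlt
        exact hP (hreg s hlt P h1)
      · rw [dif_neg hb] at hs
        rw [← hs, sub_self, norm_zero]; exact hr₀.le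
    · rw [Finset.mem_biUnion] at hs
      obtain ⟨i, -, hs⟩ := hs
      rw [Multiset.mem_toFinset, mem_roots (c i).denom_ne_zero] at hs
      by_contra hlt
      rw [not_le] at hlt
      exact (hc s (hreg s hlt)).1 i hs
  obtain ⟨Δ, hΔS, hΔ1, hΔ2⟩ := exists_separated S r₀ hr₀
  have hS0 : a₀ ∈ S := Finset.mem_insert_self _ _
  choose! f hf1 hf2 using hΔ2
  -- the radius
  have h1 : ∀ᶠ s in 𝓝[<] r₀, ∀ x ∈ S, dist x (f x) < s := by
    rw [Finset.eventually_all]
    intro x hx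
    filter_upwards [Ioo_mem_nhdsLT (hf2 x hx)] with s hs
    exact hs.1
  have h2 : ∀ᶠ s in 𝓝[<] r₀, ∀ i, (r₀ / s) ^ (c i).denom.natDegree ≤ 2 := by
    rw [eventually_all]
    intro i
    have h4 : Tendsto (fun s : ℝ => (r₀ / s) ^ (c i).denom.natDegree) (𝓝 r₀) (𝓝 1) := by
      have h5 : Tendsto (fun s : ℝ => (r₀ / s) ^ (c i).denom.natDegree) (𝓝 r₀)
          (𝓝 ((r₀ / r₀) ^ (c i).denom.natDegree)) :=
        ((tendsto_const_nhds.div tendsto_id hr₀.ne').pow _)
      rwa [div_self hr₀.ne', one_pow] at h5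
    have h6 : ∀ᶠ s in 𝓝 r₀, (r₀ / s) ^ (c i).denom.natDegree < 2 :=
      h4.eventually_lt_const (by norm_num)
    filter_upwards [nhdsWithin_le_nhds h6] with s hs
    exact hs.le
  have h3 : ∀ᶠ s in 𝓝[<] r₀, 0 < s ∧ s < r₀ := by
    filter_upwards [Ioo_mem_nhdsLT hr₀] with s hs
    exact hs
  obtain ⟨r, hr1, hr2, hr3, hr4⟩ := (h1.and (h2.and h3)).exists
  refine ⟨Δ, r, ⟨f a₀, hf1 a₀ hS0⟩, hr3, hr4, fun δ hδ => hSle δ (hΔS hδ), ?_, ?_⟩
  · intro δ hδ δ' hδ' hne
    refine le_antisymm ?_ (by rw [← dist_eq_norm]; exact hΔ1 δ hδ δ' hδ' hne)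
    have e1 : δ - δ' = (δ - a₀) - (δ' - a₀) := by ring
    rw [e1, sub_eq_add_neg]
    refine (IsUltrametricDist.norm_add_le_max _ _).trans (max_le (hSle δ (hΔS hδ)) ?_)
    rw [norm_neg]
    exact hSle δ' (hΔS hδ')
  · intro P hP
    by_cases hPD : P ∈ Disc t a₀ r₀
    swap
    · exact (hh P hPD).mono (by linarith)
    obtain ⟨b, hb, hPb⟩ := hPD
    -- `b` is far from all bad points
    have hfar : ∀ s ∈ S, r < ‖b - s‖ := by
      intro s hs
      have h5 : r < ‖b - f s‖ := by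
        by_contra hle
        rw [not_lt] at hle
        exact hP (f s) (hf1 s hs) ⟨b, hle, hPb⟩
      have h6 : ‖s - f s‖ < r := by
        rw [← dist_eq_norm]; exact hr1 s hs
      have e1 : b - s = (b - f s) - (s - f s) := by ring
      rw [e1, norm_sub_eq (h6.trans h5)]
      exact h5
    have hregb : ∀ P' : Plk C K, t - algebraMap C K b ∈ Mge P' 1 → h ∈ Mge P' 0 := by
      intro P' hP'
      by_contra hbad
      have hex : ∃ b : C, t - algebraMap C K b ∈ Mge P' 1 := ⟨b, hP'⟩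
      have hmem : b ∈ S := by
        rw [hS, Finset.mem_insert, Finset.mem_union]
        right; left
        rw [hvals, Finset.mem_image]
        refine ⟨P', by rwa [Set.Finite.mem_toFinset], ?_⟩
        rw [dif_pos hex]
        exact val_unique hex.choose_spec hP'
      have := hfar b hmem
      rw [sub_self, norm_zero] at this
      exact absurd this (not_lt.mpr hr3.le)
    refine ((hc b hregb).2 (2 * ε) (by positivity)).2 (fun i => ?_) P hPb
    set A := (c i).num with hA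
    set B := (c i).denom with hB
    have hB0 : B ≠ 0 := (c i).denom_ne_zero
    have hlc : 0 < ‖B.leadingCoeff‖ := norm_pos_iff.mpr (leadingCoeff_ne_zero.mpr hB0)
    have hroot : ∀ β, B.IsRoot β → β ∈ S := by
      intro β hβ
      rw [hS, Finset.mem_insert, Finset.mem_union]
      right; right
      rw [Finset.mem_biUnion]
      exact ⟨i, Finset.mem_univ _, by rwa [Multiset.mem_toFinset, mem_roots hB0]⟩
    have hroot' : ∀ β, B.IsRoot β → ‖β - a₀‖ ≤ r₀ := fun β hβ => hSle β (hroot β hβ)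
    set Kc : ℝ := ε ^ ((i : ℕ) + 1) * ‖B.leadingCoeff‖ with hKc
    have hKc0 : 0 ≤ Kc := by positivity
    -- bound for `A` on the disc of radius `s > r₀`
    have hAs : ∀ s : ℝ, r₀ < s → ‖A.eval b‖ ≤ Kc * s ^ B.natDegree := by
      intro s hs
      obtain ⟨b0, hb0⟩ := hv s (hr₀.trans hs).le
      have hb00 : b0 ≠ 0 := by
        rintro rfl
        rw [norm_zero] at hb0
        linarith
      refine eval_le_of_circle (a := a₀) hb00 (fun x hx => ?_) (hb.trans (by rw [hb0]; exact hs.le))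
      rw [hb0] at hx
      have hx' : r₀ < ‖x - a₀‖ := by rw [hx]; exact hs
      have h4 := ((hc x (hreg x hx')).2 ε hε.le).1 (fun P' hP' => hh P' (hout x hx' P' hP')) i
      have h5 := norm_eval_out hroot' hx'
      have h6 : 0 < ‖B.eval x‖ := norm_pos_iff.mpr ((hc x (hreg x hx')).1 i)
      rw [ratFunc_eval, norm_div, div_le_iff₀ h6, h5, hx] at h4
      rw [hKc, mul_assoc]
      exact h4
    have hA0 : ‖A.eval b‖ ≤ Kc * r₀ ^ B.natDegree := by
      have h7 : Tendsto (fun s : ℝ => Kc * s ^ B.natDegree) (𝓝[>] r₀) (𝓝 (Kc * r₀ ^ B.natDegree)) :=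
        ((continuous_const.mul (continuous_id.pow _)).tendsto r₀).mono_left nhdsWithin_le_nhds
      refine ge_of_tendsto h7 ?_
      filter_upwards [self_mem_nhdsWithin] with s hs
      exact hAs s hs
    have hBb : ‖B.leadingCoeff‖ * r ^ B.natDegree ≤ ‖B.eval b‖ :=
      norm_eval_ge hr3.le fun β hβ => (hfar β (hroot β hβ)).le
    have hBpos : 0 < ‖B.eval b‖ := lt_of_lt_of_le (by positivity) hBb
    rw [ratFunc_eval, norm_div, div_le_iff₀ hBpos]
    refine hA0.trans (le_trans ?_ (mul_le_mul_of_nonneg_left hBb (by positivity)))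
    have h8 := hr2 i
    rw [div_pow, div_le_iff₀ (by positivity)] at h8
    rw [hKc, mul_pow]
    have h9 : (1 : ℝ) ≤ 2 ^ (i : ℕ) := one_le_pow₀ (by norm_num)
    have h10 : (2 : ℝ) * r ^ B.natDegree ≤ 2 ^ ((i : ℕ) + 1) * r ^ B.natDegree := by
      rw [pow_succ]
      have : 0 ≤ r ^ B.natDegree := by positivity
      nlinarith
    have h11 : r₀ ^ B.natDegree ≤ 2 ^ ((i : ℕ) + 1) * r ^ B.natDegree := h8.trans h10
    have h12 : 0 ≤ ε ^ ((i : ℕ) + 1) * ‖B.leadingCoeff‖ := by positivity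
    calc ε ^ ((i : ℕ) + 1) * ‖B.leadingCoeff‖ * r₀ ^ B.natDegree
        ≤ ε ^ ((i : ℕ) + 1) * ‖B.leadingCoeff‖ * (2 ^ ((i : ℕ) + 1) * r ^ B.natDegree) :=
          mul_le_mul_of_nonneg_left h11 h12
      _ = 2 ^ ((i : ℕ) + 1) * ε ^ ((i : ℕ) + 1) * (‖B.leadingCoeff‖ * r ^ B.natDegree) := by ring

end S3

end P025H802
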