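import Vale.Agent.P025.R2.H802.Union

/-!
# Approximate powers on unions of disjoint discs (P025, S4 of G-START), part 2
-/

open Polynomial Filter Topology

universe u

namespace P025H802

open Vale.Agent.P019P P025H373 P025H621

section patch

variable {C K : Type u} [NormedField C] [IsUltrametricDist C] [Field K] [Algebra C K] [CFF C K]

omit [IsUltrametricDist C] in
theorem InBall_pow {P : Plk C K} {y : K} {η : ℝ} (hy : InBall P y 0 η) (n : ℕ) :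
    InBall P (y ^ n) 0 (η ^ n) := by
  obtain ⟨c, hc, hy⟩ := hy
  rw [sub_zero] at hc
  refine ⟨c ^ n, ?_, Val.pow hy n⟩
  rw [sub_zero, norm_pow]
  exact pow_le_pow_left₀ (norm_nonneg _) hc n

omit [IsUltrametricDist C] in
theorem InBall_mono {P : Plk C K} {y : K} {a : C} {η ζ : ℝ} (hy : InBall P y a η) (h : η ≤ ζ) :
    InBall P y a ζ := by
  obtain ⟨c, hc, hy⟩ := hy
  exact ⟨c, hc.trans h, hy⟩

/-- the patching functions -/
theorem exists_patch [IsAlgClosed C] (t : K) (hco : ∀ h : K, HasCoeffs (C := C) t h)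
    (Δ : Finset C) (r s ρ : ℝ) (b : C) (hb : ‖b‖ = s) (hr : 0 < r)
    (hs : 0 < s) (hρ0 : 0 < ρ) (hρ : ρ < 1) (hrs : r ≤ ρ * s)
    (hΔ : ∀ δ ∈ Δ, ∀ δ' ∈ Δ, δ ≠ δ' → s ≤ ρ * ‖δ - δ'‖) (ε : ℝ) (hε : 0 < ε) (hε1 : ε < 1)
    (δ : C) (hδ : δ ∈ Δ) (G : C → K) :
    ∃ e : K, (∀ P ∈ Disc t δ r, InBall P e 1 ε) ∧
      ∀ δ' ∈ Δ, δ' ≠ δ → ∀ P ∈ Disc t δ' r, InBall P (e * G δ') 0 ε := by
  classical
  -- values of `t`
  have hvalex : ∀ P : Plk C K, ∃ x : C, t ∈ Mge P 0 → Val P t x := by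
    intro P
    by_cases h : t ∈ Mge P 0
    · obtain ⟨x, hx⟩ := exists_Val P h
      exact ⟨x, fun _ => hx⟩
    · exact ⟨0, fun h' => absurd h' h⟩
  choose tv htv using hvalex
  let Z : Finset C := (Δ.erase δ).biUnion fun δ' =>
    ((bad_finite (C := C) (G δ')).toFinset.filter (fun P => P ∈ Disc t δ' r)).image tv
  have hZ : ∀ z ∈ Z, ∃ δ' ∈ Δ, δ' ≠ δ ∧ ‖z - δ'‖ ≤ r := by
    intro z hz
    simp only [Z, Finset.mem_biUnion, Finset.mem_erase, Finset.mem_image, Finset.mem_filter] at hz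
    obtain ⟨δ', ⟨h1, h2⟩, P, ⟨-, hP⟩, rfl⟩ := hz
    have hP' : InBall P t δ' r := hP
    exact ⟨δ', h2, h1, (htv P (mem_zero_of_inBall hP')).norm_le hP'⟩
  obtain ⟨w, hw1, hw2, hw3⟩ := exists_bump t Δ r s ρ b hb hr hs hρ0 hρ hrs hΔ δ hδ Z hZ
  have hpole : ∀ δ' : C, ∃ (m : ℕ) (B : ℝ), 1 ≤ B ∧ (δ' ∈ Δ → δ' ≠ δ → ∀ P ∈ Disc t δ' r,
      InBall P (w ^ m * G δ') 0 B) := by
    intro δ'
    by_cases hc : δ' ∈ Δ ∧ δ' ≠ δ
    swap
    · exact ⟨0, 1, le_rfl, fun h1 h2 => absurd ⟨h1, h2⟩ hc⟩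
    obtain ⟨h1, h2⟩ := hc
    obtain ⟨m, hm⟩ := exists_pow_regular w (G δ') (Disc t δ' r) (fun P hP => by
      refine ⟨mem_zero_of_inBall (hw2 δ' h1 h2 P hP), ?_⟩
      by_cases h3 : G δ' ∈ Mge P 0
      · exact Or.inl h3
      · right
        have hP' : InBall P t δ' r := hP
        refine hw3 P (tv P) ?_ (htv P (mem_zero_of_inBall hP'))
        simp only [Z, Finset.mem_biUnion, Finset.mem_erase, Finset.mem_image, Finset.mem_filter]
        exact ⟨δ', ⟨h2, h1⟩, P, ⟨by rw [Set.Finite.mem_toFinset]; exact h3, hP⟩, rfl⟩)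
    obtain ⟨B, hB1, hB⟩ := exists_bound t δ' r (w ^ m * G δ') (hco _) hm
    exact ⟨m, B, hB1, fun _ _ => hB⟩
  choose m B hB1 hB using hpole
  -- exponents
  obtain ⟨k, hk⟩ := exists_pow_lt_of_lt_one hε hρ
  set B' : ℝ := 1 + ∑ δ' ∈ Δ, B δ' with hB'
  have hB'0 : 0 < B' := by
    have : 0 ≤ ∑ δ' ∈ Δ, B δ' := Finset.sum_nonneg fun i _ => by linarith [hB1 i]
    linarith
  obtain ⟨n, hn⟩ := exists_pow_lt_of_lt_one (div_pos hε hB'0) hρ
  set M : ℕ := ∑ δ' ∈ Δ, m δ' with hM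
  set S : K := ∑ j ∈ Finset.range k, (1 - w) ^ j with hS
  have hgeom : w * S = 1 - (1 - w) ^ k := by
    have := mul_neg_geom_sum (1 - w) k
    rw [sub_sub_cancel] at this
    exact this
  refine ⟨(w * S) ^ (M + n), fun P hP => ?_, fun δ' h1 h2 P hP => ?_⟩
  · refine InBall_one_pow hε.le hε1 ?_ _
    rw [hgeom]
    obtain ⟨c, hc, hwc⟩ := hw1 P hP
    refine ⟨1 - (1 - c) ^ k, ?_, (Val.one P).sub (((Val.one P).sub hwc).pow k)⟩
    have e1 : (1 : C) - (1 - c) ^ k - 1 = -((1 - c) ^ k) := by ring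
    rw [e1, norm_neg, norm_pow, norm_sub_rev]
    exact (pow_le_pow_left₀ (norm_nonneg _) hc k).trans hk.le
  · have hwP := hw2 δ' h1 h2 P hP
    have hone : InBall P (1 : K) 0 1 := ⟨1, by simp, Val.one P⟩
    have hw' : InBall P w 0 1 := InBall_mono hwP hρ.le
    have hneg : InBall P (1 - w) 0 1 := by
      obtain ⟨c, hc, hwc⟩ := hw'
      refine ⟨1 - c, ?_, (Val.one P).sub hwc⟩
      rw [sub_zero] at hc ⊢
      rw [sub_eq_add_neg]
      refine (IsUltrametricDist.norm_add_le_max _ _).trans (max_le ?_ ?_)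
      · rw [norm_one]
      · rwa [norm_neg]
    have hSP : InBall P S 0 1 := by
      refine InBall_sum _ zero_le_one fun j _ => ?_
      have := InBall_pow hneg j
      rwa [one_pow] at this
    have hmM : m δ' ≤ M := Finset.single_le_sum (f := m) (fun _ _ => Nat.zero_le _) h1
    have e1 : (w * S) ^ (M + n) * G δ' =
        w ^ (M - m δ') * (w ^ n * (S ^ (M + n) * (w ^ m δ' * G δ'))) := by
      have e2 : w ^ (M + n) = w ^ (M - m δ') * w ^ n * w ^ m δ' := by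
        rw [← pow_add, ← pow_add]
        congr 1
        omega
      rw [mul_pow, e2]
      ring
    rw [e1]
    have h3 := InBall_mul (InBall_pow hw' (M - m δ')) (InBall_mul (InBall_pow hwP n)
      (InBall_mul (InBall_pow hSP (M + n)) (hB δ' h1 h2 P hP)))
    refine InBall_mono h3 ?_
    rw [one_pow, one_pow, one_mul, one_mul]
    have h4 : B δ' ≤ B' := by
      have := Finset.single_le_sum (f := B) (fun i _ => by linarith [hB1 i]) h1
      linarith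
    calc ρ ^ n * B δ' ≤ (ε / B') * B' :=
          mul_le_mul hn.le h4 (by linarith [hB1 δ']) (by positivity)
      _ = ε := by field_simp

theorem powOn_iUnion [IsAlgClosed C] (hv : ∀ r : ℝ, 0 ≤ r → ∃ x : C, ‖x‖ = r) {p : ℕ}
    (t : K) (ht : Transcendental C t) (hco : ∀ h : K, HasCoeffs (C := C) t h)
    (f : K) (r : ℝ) (hr : 0 < r) (Δ : Finset C)
    (hΔ : ∀ δ ∈ Δ, ∀ δ' ∈ Δ, δ ≠ δ' → r < ‖δ - δ'‖) (ε : ℝ) (hε : 0 < ε) (hε1 : ε < 1)
    (h : ∀ δ ∈ Δ, PowOn p ε (Disc t δ r) f) : PowOn p ε (⋃ δ ∈ Δ, Disc t δ r) f := by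
  classical
  by_cases hne : Δ.Nonempty
  swap
  · rw [Finset.not_nonempty_iff_eq_empty] at hne
    subst hne
    exact ⟨1, one_ne_zero, fun P hP => by simp at hP⟩
  obtain ⟨s, ρ, hs, hρ0, hρ, hrs, hsΔ⟩ := exists_radius Δ r hr hΔ
  obtain ⟨b, hb⟩ := hv s hs.le
  have h' : ∀ δ : C, ∃ g : K, g ≠ 0 ∧ (δ ∈ Δ → ∀ P ∈ Disc t δ r, InBall P (f / g ^ p) 1 ε) := by
    intro δ
    by_cases hδ : δ ∈ Δ
    · obtain ⟨g, hg, hgP⟩ := h δ hδ
      exact ⟨g, hg, fun _ => hgP⟩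
    · exact ⟨1, one_ne_zero, fun h => absurd h hδ⟩
  choose g hg hgP using h'
  have hpatch : ∀ δ : C, ∃ e : K, δ ∈ Δ → (∀ P ∈ Disc t δ r, InBall P e 1 ε) ∧
      ∀ δ' ∈ Δ, δ' ≠ δ → ∀ P ∈ Disc t δ' r, InBall P (e * (g δ / g δ')) 0 ε := by
    intro δ
    by_cases hδ : δ ∈ Δ
    · obtain ⟨e, he⟩ := exists_patch t hco Δ r s ρ b hb hr hs hρ0 hρ hrs hsΔ ε hε hε1 δ hδ
        (fun δ' => g δ / g δ')
      exact ⟨e, fun _ => he⟩
    · exact ⟨1, fun h => absurd h hδ⟩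
  choose e he using hpatch
  set G : K := ∑ δ ∈ Δ, e δ * g δ with hG
  have hquot : ∀ δ ∈ Δ, ∀ P ∈ Disc t δ r, InBall P (G / g δ) 1 ε := by
    intro δ hδ P hP
    have e1 : G / g δ = e δ + ∑ δ' ∈ Δ.erase δ, e δ' * (g δ' / g δ) := by
      rw [hG, Finset.sum_div, ← Finset.add_sum_erase _ _ hδ, mul_div_assoc, div_self (hg δ),
        mul_one]
      congr 1
      exact Finset.sum_congr rfl fun i _ => mul_div_assoc _ _ _
    have h2 : InBall P (∑ δ' ∈ Δ.erase δ, e δ' * (g δ' / g δ)) 0 ε := by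
      refine InBall_sum _ hε.le fun δ' hδ' => ?_
      rw [Finset.mem_erase] at hδ'
      exact (he δ' hδ'.2).2 δ hδ (Ne.symm hδ'.1) P hP
    obtain ⟨c, hc, hcv⟩ := (he δ hδ).1 P hP
    obtain ⟨d, hd, hdv⟩ := h2
    rw [e1]
    refine ⟨c + d, ?_, Val.add hcv hdv⟩
    have e2 : c + d - 1 = (c - 1) + (d - 0) := by ring
    rw [e2]
    exact (IsUltrametricDist.norm_add_le_max _ _).trans (max_le hc hd)
  have hnc : ∀ c : C, t ≠ algebraMap C K c := by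
    rintro c rfl
    exact ht (isAlgebraic_algebraMap c)
  have hG0 : G ≠ 0 := by
    intro h0
    obtain ⟨δ, hδ⟩ := hne
    obtain ⟨P, hP⟩ := exists_place_over (K := K) hnc δ
    obtain ⟨c, hc, hcv⟩ := hquot δ hδ P ⟨δ, by rw [sub_self, norm_zero]; exact hr.le, hP⟩
    rw [h0, zero_div] at hcv
    have h1 := Val.unique hcv (Val.zero P)
    rw [h1, zero_sub, norm_neg, norm_one] at hc
    linarith
  refine ⟨G, hG0, fun P hP => ?_⟩
  simp only [Set.mem_iUnion] at hP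
  obtain ⟨δ, hδ, hP⟩ := hP
  have e1 : f / G ^ p = f / g δ ^ p * ((G / g δ) ^ p)⁻¹ := by
    rw [div_pow, inv_div]
    have h1 : g δ ^ p ≠ 0 := pow_ne_zero _ (hg δ)
    have h2 : G ^ p ≠ 0 := pow_ne_zero _ hG0
    field_simp
  rw [e1]
  exact InBall_one_mul hε1 (hgP δ hδ P hP)
    (InBall_one_inv hε1 (InBall_one_pow hε.le hε1 (hquot δ hδ P hP) p))

end patch

end P025H802
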