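import Vale.Agent.P025.R2.H816.J04

/-!
# Pole orders of elements satisfying a monic equation (P025, blueprint (7.1) (c))
-/

set_option linter.all false

open Polynomial IntermediateField Vale.Agent.P019P

namespace P025H802

section pole

variable {k F : Type*} [Field k] [Field F] [Algebra k F] [CFF k F]

theorem pow_mem_Mge {P : Plk k F} {z : F} {a : ℤ} (hz : z ∈ Mge P a) (n : ℕ) :
    z ^ n ∈ Mge P (n * a) := by
  induction n with
  | zero =>
    right
    rw [pow_zero, ord_one]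
    simp
  | succ n ih =>
    have h := mul_mem_Mge ih hz
    rw [pow_succ]
    have e : (n : ℤ) * a + a = ((n + 1 : ℕ) : ℤ) * a := by push_cast; ring
    rwa [e] at h

theorem aeval_mem_Mge {P : Plk k F} {x : F} {ρ : ℤ} (hρ : 0 ≤ ρ) (hx : x ∈ Mge P (-ρ))
    (φ : k[X]) {d : ℕ} (hd : φ.natDegree ≤ d) : aeval x φ ∈ Mge P (-(ρ * d)) := by
  rw [aeval_eq_sum_range' (Nat.lt_succ_of_le hd)]
  refine Submodule.sum_mem _ fun i hi => Submodule.smul_mem _ _ ?_
  have hi' : i ≤ d := Nat.lt_succ_iff.mp (Finset.mem_range.mp hi)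
  refine Mge_mono P ?_ (pow_mem_Mge hx i)
  have h1 : (i : ℤ) ≤ d := by exact_mod_cast hi'
  have h2 := mul_le_mul_of_nonneg_left h1 hρ
  linarith [mul_comm (i : ℤ) ρ]

/-- an element satisfying a monic equation over `k[x]` whose coefficients have degrees `≤ n j` has
poles at most `n` times those of `x`. -/
theorem mem_Mr_of_monic {x y : F} {n m : ℕ} (a : Fin m → k[X])
    (ha : ∀ j, (a j).natDegree ≤ n * (m - j)) (h : y ^ m = ∑ j, aeval x (a j) * y ^ (j : ℕ)) :
    y ∈ Mr k x n := by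
  rw [mem_Mr]
  intro P
  by_contra hcon
  rw [mem_Mge, not_or, not_le] at hcon
  obtain ⟨hy0, hlt⟩ := hcon
  set ρ := pol k x P with hρ
  have hρ0 : 0 ≤ ρ := pol_nonneg x P
  have hx : x ∈ Mge P (-ρ) := by
    rw [mem_Mge]
    right
    rw [hρ, pol_apply]
    have := le_max_right (0 : ℤ) (-ord P x)
    linarith
  have hym : y ^ m ∈ Mge P (m * ord P y + 1) := by
    rw [h]
    refine Submodule.sum_mem _ fun j _ => ?_
    have h1 := aeval_mem_Mge hρ0 hx (a j) (ha j)
    have h2 : y ^ (j : ℕ) ∈ Mge P ((j : ℕ) * ord P y) := pow_mem_Mge (Or.inr le_rfl) _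
    refine Mge_mono P ?_ (mul_mem_Mge h1 h2)
    have hj : (j : ℕ) < m := j.2
    have h3 : ((n * (m - (j : ℕ)) : ℕ) : ℤ) = n * ((m : ℤ) - (j : ℕ)) := by
      push_cast [Nat.cast_sub hj.le]
      ring
    rw [h3]
    have h4 : (1 : ℤ) ≤ (m : ℤ) - (j : ℕ) := by
      have : ((j : ℕ) : ℤ) < m := by exact_mod_cast hj
      linarith
    have h5 : ord P y + 1 ≤ -(n * ρ) := by linarith
    have h6 := mul_le_mul_of_nonneg_left h5 (by linarith : (0 : ℤ) ≤ (m : ℤ) - (j : ℕ))
    nlinarith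
  rw [mem_Mge, ord_pow] at hym
  rcases hym with h0 | h1
  · have hm : m ≠ 0 := by
      rintro rfl
      simp at h0
    exact hy0 ((pow_eq_zero_iff hm).mp h0)
  · linarith

end pole

end P025H802
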