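import Vale.Agent.P025.R2.H802.Disc

/-!
# Approximate powers on small discs and off large discs (P025, S3 of G-START)
-/

open Polynomial Filter Topology

universe u

namespace P025H802

open Vale.Agent.P019P P025H373 P025H621

section units

variable {C K : Type u} [NormedField C] [Field K] [Algebra C K] [CFF C K]

theorem unit_mul {P : Plk C K} {u v : K} (hu : u - 1 ∈ Mge P 1) (hv : v - 1 ∈ Mge P 1) :
    u * v - 1 ∈ Mge P 1 := by
  have hu0 : u ∈ Mge P 0 := by
    have := mem_zero_of_val (P := P) (t := u) (b := 1) (by rwa [map_one])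
    exact this
  have e1 : u * v - 1 = u * (v - 1) + (u - 1) := by ring
  rw [e1]
  refine Submodule.add_mem _ ?_ hu
  have := mul_mem_Mge hu0 hv
  rwa [zero_add] at this

theorem unit_inv {P : Plk C K} {u : K} (hu : u - 1 ∈ Mge P 1) : u ≠ 0 ∧ u⁻¹ - 1 ∈ Mge P 1 := by
  have h1 := ord_add_of_lt (P := P) (z := (1 : K)) (w := u - 1) one_ne_zero
    (by rw [ord_one, zero_add]; exact hu)
  rw [add_sub_cancel, ord_one] at h1
  refine ⟨h1.1, ?_⟩
  have e1 : u⁻¹ - 1 = -((u - 1) * u⁻¹) := by
    field_simp [h1.1]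
    ring
  rw [e1]
  refine Submodule.neg_mem _ ?_
  have h2 : u⁻¹ ∈ Mge P 0 := by
    right
    rw [ord_inv, h1.2, neg_zero]
  have := mul_mem_Mge hu h2
  rwa [add_zero] at this

theorem unit_pow {P : Plk C K} {u : K} (hu : u - 1 ∈ Mge P 1) (n : ℕ) : u ^ n - 1 ∈ Mge P 1 := by
  induction n with
  | zero => rw [pow_zero, sub_self]; exact zero_mem _
  | succ n ih => rw [pow_succ]; exact unit_mul ih hu

/-- at one place, an element whose order is divisible by `p` is a `p`-th power times a `1`-unit -/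
theorem exists_root_at [IsAlgClosed C] {p : ℕ} (hp : p ≠ 0) {f : K} (hf : f ≠ 0) (P : Plk C K)
    (hd : (p : ℤ) ∣ ord P f) : ∃ g : K, g ≠ 0 ∧ f / g ^ p - 1 ∈ Mge P 1 := by
  obtain ⟨m, hm⟩ := hd
  obtain ⟨π, hπ0, hπ⟩ := exists_unif P
  have hu0 : f / (π ^ m) ^ p ≠ 0 := div_ne_zero hf (pow_ne_zero _ (zpow_ne_zero _ hπ0))
  have hord : ord P (f / (π ^ m) ^ p) = 0 := by
    rw [div_eq_mul_inv, ord_mul P hf (inv_ne_zero (pow_ne_zero _ (zpow_ne_zero _ hπ0))), ord_inv,
      ord_pow, ord_zpow, hπ, hm]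
    ring
  obtain ⟨c, hc⟩ := exists_val P (z := f / (π ^ m) ^ p) (Or.inr (le_of_eq hord.symm))
  have hc0 : c ≠ 0 := by
    rintro rfl
    rw [map_zero, sub_zero] at hc
    rcases hc with h1 | h1
    · exact hu0 h1
    · rw [hord] at h1
      omega
  obtain ⟨e, he⟩ := IsAlgClosed.exists_pow_nat_eq c (Nat.pos_of_ne_zero hp)
  have he0 : e ≠ 0 := by
    rintro rfl
    rw [zero_pow hp] at he
    exact hc0 he.symm
  have hcK : algebraMap C K c ≠ 0 := by rwa [Ne, map_eq_zero]
  have heK : algebraMap C K e ≠ 0 := by rwa [Ne, map_eq_zero]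
  refine ⟨algebraMap C K e * π ^ m, mul_ne_zero heK (zpow_ne_zero _ hπ0), ?_⟩
  have e1 : f / (algebraMap C K e * π ^ m) ^ p - 1 =
      c⁻¹ • (f / (π ^ m) ^ p - algebraMap C K c) := by
    rw [mul_pow, ← map_pow, he, Algebra.smul_def, map_inv₀, mul_sub, inv_mul_cancel₀ hcK]
    congr 1
    rw [div_mul_eq_div_div, div_right_comm, div_eq_mul_inv _ (algebraMap C K c), mul_comm]
  rw [e1]
  exact Submodule.smul_mem _ _ hc

end units

section small

variable {C K : Type u} [NormedField C] [Field K] [Algebra C K] [CFF C K]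

/-- an element vanishing at all places over `a` is small on a small disc -/
theorem exists_small_disc (t : K) (a : C) (h : K) (hco : HasCoeffs (C := C) t h)
    (h0 : ∀ P : Plk C K, t - algebraMap C K a ∈ Mge P 1 → h ∈ Mge P 1) (ε : ℝ) (hε : 0 < ε) :
    ∃ r, 0 < r ∧ ∀ P ∈ Disc t a r, InBall P h 0 ε := by
  classical
  obtain ⟨N, c, hc⟩ := hco
  have hrega : ∀ P : Plk C K, t - algebraMap C K a ∈ Mge P 1 → h ∈ Mge P 0 := fun P hP =>
    Mge_mono P (by norm_num) (h0 P hP)
  have hva : ∀ i, (c i).num.eval a / (c i).denom.eval a = 0 := by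
    intro i
    have h1 := ((hc a hrega).2 0 le_rfl).1 (fun P hP => ⟨0, by simp, by
      rw [map_zero, sub_zero]; exact h0 P hP⟩) i
    rw [zero_pow (Nat.succ_ne_zero _), norm_le_zero_iff, ratFunc_eval] at h1
    exact h1
  have hfin := bad_finite (C := C) h
  have h1 : ∀ᶠ x in 𝓝 a, ∀ P ∈ hfin.toFinset, t - algebraMap C K x ∉ Mge P 1 := by
    rw [Finset.eventually_all]
    intro P hP
    rw [Set.Finite.mem_toFinset] at hP
    by_cases hb : ∃ b : C, t - algebraMap C K b ∈ Mge P 1
    · obtain ⟨b, hb⟩ := hb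
      have hne : a ≠ b := by
        rintro rfl
        exact hP (hrega P hb)
      filter_upwards [isOpen_ne.mem_nhds hne] with x hx hx'
      exact hx (val_unique hx' hb)
    · refine Eventually.of_forall fun x hx => hb ⟨x, hx⟩
  have h2 : ∀ᶠ x in 𝓝 a, ∀ i, ‖(c i).eval (RingHom.id C) x‖ ≤ ε ^ ((i : ℕ) + 1) := by
    rw [eventually_all]
    intro i
    have hcont : ContinuousAt (fun x : C => (c i).num.eval x / (c i).denom.eval x) a :=
      (Polynomial.continuous _).continuousAt.div (Polynomial.continuous _).continuousAt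
        ((hc a hrega).1 i)
    have h3 : Tendsto (fun x : C => ‖(c i).num.eval x / (c i).denom.eval x‖) (𝓝 a) (𝓝 0) := by
      have := hcont.norm
      rw [ContinuousAt, hva i, norm_zero] at this
      exact this
    have h4 : (0 : ℝ) < ε ^ ((i : ℕ) + 1) := by positivity
    filter_upwards [h3.eventually_lt_const h4] with x hx
    rw [ratFunc_eval]
    exact hx.le
  obtain ⟨r, hr, hball⟩ := Metric.eventually_nhds_iff.mp (h1.and h2)
  refine ⟨r / 2, by positivity, ?_⟩
  rintro P ⟨b, hb, hPb⟩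
  have hbr : dist b a < r := by
    rw [dist_eq_norm]
    linarith
  obtain ⟨hb1, hb2⟩ := hball hbr
  have hregb : ∀ P' : Plk C K, t - algebraMap C K b ∈ Mge P' 1 → h ∈ Mge P' 0 := by
    intro P' hP'
    by_contra hbad
    exact hb1 P' (by rwa [Set.Finite.mem_toFinset]) hP'
  exact ((hc b hregb).2 ε hε.le).2 hb2 P hPb

/-- small discs -/
theorem powOn_small [IsAlgClosed C] {p : ℕ} (hp : p ≠ 0) (t : K) (ht : Transcendental C t)
    (hco : ∀ h : K, HasCoeffs (C := C) t h) (f : K) (hf : f ≠ 0)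
    (hd : DivN C p f) (ε : ℝ) (hε : 0 < ε) (a : C) : ∃ r, 0 < r ∧ PowOn p ε (Disc t a r) f := by
  classical
  have htn : ∀ c : C, t ≠ algebraMap C K c := by
    rintro c rfl
    exact ht (isAlgebraic_algebraMap c)
  have hfib := fib_finite (k := C) htn a
  choose g hg0 hg using fun P : Plk C K => exists_root_at hp hf P (hd P)
  set S := hfib.toFinset with hS
  set M : ℤ := ∑ P ∈ S, |ord P (g P)| + 1 with hM
  obtain ⟨z, hz⟩ := weak_appr S g M
  have hMb : ∀ P ∈ S, ord P (g P) + 1 ≤ M := by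
    intro P hP
    have h1 : |ord P (g P)| ≤ ∑ P ∈ S, |ord P (g P)| :=
      Finset.single_le_sum (f := fun P => |ord P (g P)|) (fun _ _ => abs_nonneg _) hP
    have h2 := le_abs_self (ord P (g P))
    rw [hM]
    linarith
  have hzg : ∀ P ∈ S, z / g P - 1 ∈ Mge P 1 := by
    intro P hP
    have h1 := hz P hP
    have h2 : (g P)⁻¹ ∈ Mge P (-ord P (g P)) := by
      right
      rw [ord_inv]
    have h3 := mul_mem_Mge h1 h2
    have e1 : (z - g P) * (g P)⁻¹ = z / g P - 1 := by
      rw [sub_mul, mul_inv_cancel₀ (hg0 P), div_eq_mul_inv]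
    rw [e1] at h3
    exact Mge_mono P (by have := hMb P hP; linarith) h3
  have hSne : S.Nonempty := by
    obtain ⟨P, hP⟩ := exists_zero (k := C) (nc_sub htn a)
    exact ⟨P, by rw [hS, Set.Finite.mem_toFinset]; exact hP⟩
  have hz0 : z ≠ 0 := by
    obtain ⟨P, hP⟩ := hSne
    have h1 := (unit_inv (hzg P hP)).1
    intro h2
    rw [h2, zero_div] at h1
    exact h1 rfl
  have key : ∀ P : Plk C K, t - algebraMap C K a ∈ Mge P 1 → f / z ^ p - 1 ∈ Mge P 1 := by
    intro P hP
    have hPS : P ∈ S := by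
      rw [hS, Set.Finite.mem_toFinset, Set.mem_ofPred_eq]
      rcases hP with h1 | h1
      · exact absurd (sub_eq_zero.mp h1) (htn a)
      · omega
    have h1 := hzg P hPS
    have h2 := unit_pow (unit_inv h1).2 p
    have h3 := unit_mul (hg P) h2
    have e1 : f / g P ^ p * (z / g P)⁻¹ ^ p = f / z ^ p := by
      have := hg0 P
      rw [inv_div, div_pow, div_mul_div_comm, mul_comm (g P ^ p), mul_div_mul_right]
      exact pow_ne_zero _ this
    rwa [e1] at h3
  obtain ⟨r, hr, hr'⟩ := exists_small_disc t a (f / z ^ p - 1) (hco _) key ε hε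
  refine ⟨r, hr, z, hz0, fun P hP => ?_⟩
  obtain ⟨c, hc1, hc2⟩ := hr' P hP
  refine ⟨c + 1, by rwa [add_sub_cancel_right, ← sub_zero c], ?_⟩
  rw [map_add, map_one]
  have e1 : f / z ^ p - (algebraMap C K c + 1) = f / z ^ p - 1 - algebraMap C K c := by ring
  rwa [e1]

/-- outside of large discs -/
theorem powOn_large [IsAlgClosed C] {p : ℕ} (hp : p ≠ 0) (t : K) (ht : Transcendental C t)
    (hco : ∀ (t : K), Transcendental C t → ∀ h : K, HasCoeffs (C := C) t h) (f : K) (hf : f ≠ 0)
    (hd : DivN C p f) (ε : ℝ) (hε : 0 < ε) (a : C) :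
    ∃ R, 0 < R ∧ PowOn p ε (Disc t a R)ᶜ f := by
  have htn : ∀ c : C, t ≠ algebraMap C K c := by
    rintro c rfl
    exact ht (isAlgebraic_algebraMap c)
  have hta0 : t - algebraMap C K a ≠ 0 := sub_ne_zero.mpr (htn a)
  have ht' : Transcendental C (t - algebraMap C K a)⁻¹ :=
    (finite_of_notMem (nc_inv (nc_sub htn a))).1
  obtain ⟨r, hr, g, hg0, hg⟩ := powOn_small hp _ ht' (hco _ ht') f hf hd ε hε 0
  refine ⟨r⁻¹, by positivity, g, hg0, fun P hP => hg P ?_⟩
  rw [Set.mem_compl_iff] at hP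
  by_cases hreg : t ∈ Mge P 0
  · obtain ⟨b, hb⟩ := exists_val P hreg
    have hlt : r⁻¹ < ‖b - a‖ := by
      by_contra hle
      rw [not_lt] at hle
      exact hP ⟨b, hle, hb⟩
    have hba : b - a ≠ 0 := by
      intro h0
      rw [h0, norm_zero] at hlt
      have := inv_pos.mpr hr
      linarith
    have hbaK : algebraMap C K (b - a) ≠ 0 := by rwa [Ne, map_eq_zero]
    refine ⟨(b - a)⁻¹, ?_, ?_⟩
    · rw [sub_zero, norm_inv]
      exact inv_le_of_inv_le₀ hr hlt.le
    · -- `(t - a) / (b - a)` is a `1`-unit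
      have h1 : (t - algebraMap C K a) * (algebraMap C K (b - a))⁻¹ - 1 ∈ Mge P 1 := by
        have e1 : (t - algebraMap C K a) * (algebraMap C K (b - a))⁻¹ - 1 =
            (b - a)⁻¹ • (t - algebraMap C K b) := by
          rw [Algebra.smul_def, map_inv₀, map_sub]
          rw [map_sub] at hbaK
          field_simp
          ring
        rw [e1]
        exact Submodule.smul_mem _ _ hb
      have h2 := (unit_inv h1).2
      have e2 : (t - algebraMap C K a)⁻¹ - algebraMap C K (b - a)⁻¹ =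
          (b - a)⁻¹ • (((t - algebraMap C K a) * (algebraMap C K (b - a))⁻¹)⁻¹ - 1) := by
        rw [Algebra.smul_def, map_inv₀, mul_inv, inv_inv, mul_sub, mul_one,
          mul_comm _ (algebraMap C K (b - a)), ← mul_assoc, inv_mul_cancel₀ hbaK, one_mul]
      rw [e2]
      exact Submodule.smul_mem _ _ h2
  · -- `t` has a pole at `P`
    refine ⟨0, by rw [sub_zero, norm_zero]; exact hr.le, ?_⟩
    rw [map_zero, sub_zero]
    right
    rw [ord_inv]
    by_contra hlt
    rw [not_le] at hlt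
    apply hreg
    have h1 : t - algebraMap C K a ∈ Mge P 0 := Or.inr (by omega)
    have h2 := Submodule.add_mem _ h1 (algebraMap_mem_Mge P a)
    rwa [sub_add_cancel] at h2

end small

end P025H802
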