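import Vale.Agent.P025.R2.H905.Dict
import Vale.Agent.P025.R2.H802.Disc

/-!
# S2 of G-START: values of the coefficients of minimal polynomials
-/

open Polynomial

universe u

namespace P025H802

open Vale.Agent.P019P P025H373 P025H621 P025H492 P025H905

section s2

variable {C K : Type u} [NormedField C] [IsUltrametricDist C] [IsAlgClosed C] [Field K]
  [Algebra C K] [CFF C K]

theorem s2_core [Algebra (RatFunc C) K] [IsScalarTower C (RatFunc C) K]
    [FiniteDimensional (RatFunc C) K] (t : K) (htX : algebraMap (RatFunc C) K RatFunc.X = t)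
    (h : K) : HasCoeffs (C := C) t h := by
  have := cff_rat C K
  set q : (RatFunc C)[X] := minpoly (RatFunc C) h with hq
  have hmon : q.Monic := minpoly.monic (Algebra.IsIntegral.isIntegral h)
  set m : ℕ := q.natDegree with hm
  have hm0 : 0 < m := minpoly.natDegree_pos (Algebra.IsIntegral.isIntegral h)
  refine ⟨m, fun i => q.coeff (m - 1 - i), fun b hb => ?_⟩
  obtain ⟨P, hP⟩ := exists_point (C := C) b
  have hover : ∀ P' : Plk C K, down (RatFunc C) P' = P → t - algebraMap C K b ∈ Mge P' 1 := by
    intro P' hP'
    rw [← hP'] at hP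
    have h1 := hP.up
    rw [htX] at h1
    exact h1
  have hint : IsIntegral P.1 h := isIntegral_of_forall fun P' hP' =>
    mem_iff_Mge.2 (hb P' (hover P' hP'))
  -- values of all coefficients
  have hval : ∀ j, (q.coeff j).denom.eval b ≠ 0 ∧
      Vl P (q.coeff j) ((q.coeff j).eval (RingHom.id C) b) := by
    intro j
    obtain ⟨v, hv⟩ := exists_Vl (coeff_minpoly_mem hint j)
    obtain ⟨h1, h2⟩ := eval_of_Vl hP hv
    refine ⟨h1, ?_⟩
    rw [RatFunc.eval, eval₂_id, eval₂_id, h2]
    exact hv
  refine ⟨fun i => (hval _).1, fun R hR => ⟨fun hR' i => ?_, fun hc P' hP' => ?_⟩⟩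
  · -- bound of the coefficients
    have key : ∀ R' : ℝ, 0 < R' → R ≤ R' →
        ‖(q.coeff (m - 1 - i)).eval (RingHom.id C) b‖ ≤ R' ^ ((i : ℕ) + 1) := by
      intro R' hR0 hRR
      obtain ⟨v, hv, hv2⟩ := exists_coeff_value (P := P) (z := h) hR0 (fun P' hP' => by
        obtain ⟨c, hc, hcv⟩ := hR' P' (hover P' hP')
        rw [sub_zero] at hc
        exact ⟨c, hc.trans hRR, hcv⟩) (i := m - 1 - i) (by rw [← hq, ← hm]; omega)
      rw [(hval _).2.unique hv2]
      have e1 : q.natDegree - (m - 1 - (i : ℕ)) = (i : ℕ) + 1 := by
        have := i.2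
        omega
      rw [← hq, e1] at hv
      exact hv
    rcases hR.eq_or_lt with h0 | h0
    · subst h0
      rw [zero_pow (Nat.succ_ne_zero _)]
      by_contra hlt
      rw [not_le] at hlt
      set v := ‖(q.coeff (m - 1 - i)).eval (RingHom.id C) b‖ with hv
      have h1 := key (min 1 (v / 2)) (lt_min one_pos (by linarith))
        (le_min zero_le_one (by linarith))
      have h2 : (min 1 (v / 2)) ^ ((i : ℕ) + 1) ≤ min 1 (v / 2) := by
        refine pow_le_of_le_one ?_ (min_le_left _ _) (Nat.succ_ne_zero _)
        exact le_min zero_le_one (by linarith)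
      have h3 := min_le_right (1 : ℝ) (v / 2)
      linarith
    · exact key R h0 le_rfl
  · -- bound of the values
    have hP'' : Vl P' t b := hP'
    obtain ⟨v, hv⟩ := exists_Vl (mem_iff_Mge.2 (hb P' hP'))
    refine ⟨v, ?_, hv⟩
    rw [sub_zero]
    -- values of the coefficients at `P'`
    have hcv : ∀ j, Vl P' (algebraMap (RatFunc C) K (q.coeff j))
        ((q.coeff j).eval (RingHom.id C) b) := by
      intro j
      have h1 := hP''.aeval (q.coeff j).num
      have h2 := hP''.aeval (q.coeff j).denom
      have h3 := h1.div h2 (hval j).1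
      rw [RatFunc.eval, eval₂_id, eval₂_id]
      have h4 : ∀ r : C[X], algebraMap (RatFunc C) K (algebraMap C[X] (RatFunc C) r) =
          aeval t r := by
        intro r
        rw [← aeval_X_eq, ← htX, aeval_algebraMap_apply]
      have h5 : algebraMap (RatFunc C) K (q.coeff j) =
          aeval t (q.coeff j).num / aeval t (q.coeff j).denom := by
        rw [← h4, ← h4, ← map_div₀, RatFunc.num_div_denom]
      rw [h5]
      exact h3
    have hsum : v ^ m = -∑ j ∈ Finset.range m, (q.coeff j).eval (RingHom.id C) b * v ^ j := by
      have h1 : ∑ j ∈ Finset.range (m + 1), algebraMap (RatFunc C) K (q.coeff j) * h ^ j = 0 := by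
        have h2 := minpoly.aeval (RatFunc C) h
        rw [aeval_eq_sum_range] at h2
        rw [← h2]
        refine Finset.sum_congr rfl fun j _ => ?_
        rw [Algebra.smul_def]
      have h2 := Vl.sum (P := P') (s := Finset.range (m + 1))
        (f := fun j => algebraMap (RatFunc C) K (q.coeff j) * h ^ j)
        (c := fun j => (q.coeff j).eval (RingHom.id C) b * v ^ j)
        (fun j _ => (hcv j).mul (hv.pow j))
      rw [h1] at h2
      have h3 := h2.unique Vl.zero
      rw [Finset.sum_range_succ] at h3
      have h4 : q.coeff m = 1 := hmon.coeff_natDegree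
      rw [h4, RatFunc.eval_one, one_mul] at h3
      exact eq_neg_of_add_eq_zero_right h3
    by_contra hlt
    rw [not_le] at hlt
    have hv0 : 0 < ‖v‖ := hR.trans_lt hlt
    have h1 : ‖∑ j ∈ Finset.range m, (q.coeff j).eval (RingHom.id C) b * v ^ j‖ < ‖v‖ ^ m := by
      have h2 : ∀ s : Finset ℕ, s ⊆ Finset.range m →
          ‖∑ j ∈ s, (q.coeff j).eval (RingHom.id C) b * v ^ j‖ < ‖v‖ ^ m := by
        intro s
        induction s using Finset.induction_on with
        | empty =>
          intro _
          rw [Finset.sum_empty, norm_zero]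
          positivity
        | insert a s ha ih =>
          intro hs
          rw [Finset.sum_insert ha]
          refine (IsUltrametricDist.norm_add_le_max _ _).trans_lt (max_lt ?_
            (ih fun x hx => hs (Finset.mem_insert_of_mem hx)))
          have ham : a < m := Finset.mem_range.1 (hs (Finset.mem_insert_self _ _))
          rw [norm_mul, norm_pow]
          have h3 := hc ⟨m - 1 - a, by omega⟩
          have e1 : m - 1 - (m - 1 - a) = a := by omega
          simp only [e1] at h3
          have e2 : m - 1 - a + 1 = m - a := by omega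
          rw [e2] at h3
          have h4 : R ^ (m - a) < ‖v‖ ^ (m - a) := pow_lt_pow_left₀ hlt hR (by omega)
          have e3 : ‖v‖ ^ m = ‖v‖ ^ (m - a) * ‖v‖ ^ a := by
            rw [← pow_add]
            congr 1
            omega
          rw [e3]
          exact mul_lt_mul_of_pos_right (h3.trans_lt h4) (by positivity)
      exact h2 _ subset_rfl
    rw [← norm_neg, ← hsum, norm_pow] at h1
    exact lt_irrefl _ h1

/-- **S2** -/
theorem exists_coeffs (t : K) (ht : Transcendental C t) (h : K) : HasCoeffs (C := C) t h := by
  let _ := algT t ht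
  have : IsScalarTower C (RatFunc C) K := by
    refine IsScalarTower.of_algebraMap_eq fun c => ?_
    exact ((emb t ht).commutes c).symm
  have htX : algebraMap (RatFunc C) K RatFunc.X = t := emb_X t ht
  have : FiniteDimensional (RatFunc C) K :=
    finite_of_transcendental (k := C) (RatFunc.transcendental_X (K := C))
  exact s2_core t htX h

end s2

end P025H802

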