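import Vale.Agent.P025.R2.H802.Val

/-!
# Approximate powers on unions of disjoint discs (P025, S4 of G-START)
-/

open Polynomial Filter Topology

universe u

namespace P025H802

open Vale.Agent.P019P P025H373 P025H621

section union

variable {C K : Type u} [NormedField C] [IsUltrametricDist C] [Field K] [Algebra C K] [CFF C K]

/-- a function close to `1` on one disc, small on the other discs and vanishing at given points
of the other discs -/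
theorem exists_bump (t : K) (Δ : Finset C) (r s ρ : ℝ) (b : C) (hb : ‖b‖ = s) (hr : 0 < r)
    (hs : 0 < s) (hρ0 : 0 < ρ) (hρ : ρ < 1) (hrs : r ≤ ρ * s)
    (hΔ : ∀ δ ∈ Δ, ∀ δ' ∈ Δ, δ ≠ δ' → s ≤ ρ * ‖δ - δ'‖) (δ : C) (hδ : δ ∈ Δ) (Z : Finset C)
    (hZ : ∀ z ∈ Z, ∃ δ' ∈ Δ, δ' ≠ δ ∧ ‖z - δ'‖ ≤ r) :
    ∃ w : K, (∀ P ∈ Disc t δ r, InBall P w 1 ρ) ∧
      (∀ δ' ∈ Δ, δ' ≠ δ → ∀ P ∈ Disc t δ' r, InBall P w 0 ρ) ∧
      (∀ (P : Plk C K) (x : C), x ∈ Z → Val P t x → w ∈ Mge P 1) := by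
  classical
  have hrs' : r < s := lt_of_le_of_lt hrs (by nlinarith)
  have hsd : ∀ δ ∈ Δ, ∀ δ' ∈ Δ, δ ≠ δ' → s < ‖δ - δ'‖ := by
    intro δ hδ δ' hδ' hne
    have h1 := hΔ δ hδ δ' hδ' hne
    have h2 : 0 < ‖δ - δ'‖ := norm_pos_iff.mpr (sub_ne_zero.mpr hne)
    nlinarith
  have hb0 : b ≠ 0 := by
    rintro rfl
    rw [norm_zero] at hb
    exact hs.ne hb
  -- distances
  have hdist : ∀ δ₁ ∈ Δ, ∀ x : C, ‖x - δ₁‖ ≤ r → ∀ δ₂ ∈ Δ, δ₁ ≠ δ₂ → ∀ z : C, ‖z - δ₂‖ ≤ r →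
      ‖x - z‖ = ‖δ₁ - δ₂‖ := by
    intro δ₁ h1 x hx δ₂ h2 hne z hz
    have h3 := hsd δ₁ h1 δ₂ h2 hne
    have e1 : x - z = (δ₁ - δ₂) + ((x - δ₁) - (z - δ₂)) := by ring
    rw [e1]
    refine norm_add_eq (lt_of_le_of_lt ?_ (hrs'.trans h3))
    rw [sub_eq_add_neg]
    refine (IsUltrametricDist.norm_add_le_max _ _).trans (max_le hx ?_)
    rwa [norm_neg]
  have hsame : ∀ δ₁ : C, ∀ x z : C, ‖x - δ₁‖ ≤ r → ‖z - δ₁‖ ≤ r → ‖x - z‖ ≤ r := by
    intro δ₁ x z hx hz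
    have e1 : x - z = (x - δ₁) + (-(z - δ₁)) := by ring
    rw [e1]
    refine (IsUltrametricDist.norm_add_le_max _ _).trans (max_le hx ?_)
    rwa [norm_neg]
  -- the factor `u(y) = y / (y - b)` at `y = x - z`
  have hu_same : ∀ y : C, ‖y‖ ≤ r → ‖y - b‖ = s ∧ ‖y / (y - b)‖ ≤ 1 := by
    intro y hy
    have h1 : ‖y - b‖ = s := by
      rw [norm_sub_rev, ← hb]
      exact norm_sub_eq (hy.trans_lt (by rw [hb]; exact hrs'))
    refine ⟨h1, ?_⟩
    rw [norm_div, h1, div_le_one hs]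
    exact hy.trans hrs'.le
  have hu_far : ∀ y : C, s < ‖y‖ → ‖y - b‖ = ‖y‖ := fun y hy => norm_sub_eq (by rw [hb]; exact hy)
  -- the function
  let wC : C → C := fun x => b / (x - (δ - b)) * ∏ z ∈ Z, ((x - z) / (x - (z + b)))
  let wK : K := algebraMap C K b / (t - algebraMap C K (δ - b)) *
    ∏ z ∈ Z, ((t - algebraMap C K z) / (t - algebraMap C K (z + b)))
  have hden1 : ∀ δ₁ ∈ Δ, ∀ x : C, ‖x - δ₁‖ ≤ r → x - (δ - b) ≠ 0 := by
    intro δ₁ h1 x hx h0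
    have e1 : x - (δ - b) = (x - δ) + b := by ring
    rw [e1] at h0
    have h2 : ‖x - δ‖ = s := by
      rw [eq_neg_of_add_eq_zero_left h0, norm_neg, hb]
    by_cases hne : δ₁ = δ
    · subst hne
      linarith
    · have h3 := hdist δ₁ h1 x hx δ hδ hne δ (by rw [sub_self, norm_zero]; exact hr.le)
      have h4 := hsd δ₁ h1 δ hδ hne
      linarith
  have hden2 : ∀ δ₁ ∈ Δ, ∀ x : C, ‖x - δ₁‖ ≤ r → ∀ z ∈ Z, x - (z + b) ≠ 0 := by
    intro δ₁ h1 x hx z hz h0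
    obtain ⟨δ₂, h2, -, hz2⟩ := hZ z hz
    have h3 : ‖x - z‖ = s := by
      have e1 : x - z = b := by
        have : x = z + b := sub_eq_zero.mp h0
        rw [this]; ring
      rw [e1, hb]
    by_cases hne : δ₁ = δ₂
    · subst hne
      have := hsame δ₁ x z hx hz2
      linarith
    · have h4 := hdist δ₁ h1 x hx δ₂ h2 hne z hz2
      have h5 := hsd δ₁ h1 δ₂ h2 hne
      linarith
  have hval : ∀ δ₁ ∈ Δ, ∀ x : C, ‖x - δ₁‖ ≤ r → ∀ P : Plk C K, Val P t x →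
      Val P wK (wC x) := by
    intro δ₁ h1 x hx P hP
    refine Val.mul ?_ (Val.prod _ fun z hz => ?_)
    · exact (Val.const P b).div (hP.sub (Val.const P _)) (hden1 δ₁ h1 x hx)
    · exact (hP.sub (Val.const P _)).div (hP.sub (Val.const P _)) (hden2 δ₁ h1 x hx z hz)
  -- norms of the factors
  have hfac : ∀ δ₁ ∈ Δ, ∀ x : C, ‖x - δ₁‖ ≤ r → ∀ z ∈ Z, ‖(x - z) / (x - (z + b))‖ ≤ 1 := by
    intro δ₁ h1 x hx z hz
    obtain ⟨δ₂, h2, -, hz2⟩ := hZ z hz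
    have e1 : x - (z + b) = (x - z) - b := by ring
    rw [e1]
    by_cases hne : δ₁ = δ₂
    · subst hne
      exact (hu_same _ (hsame δ₁ x z hx hz2)).2
    · have h4 := hdist δ₁ h1 x hx δ₂ h2 hne z hz2
      have h5 := hsd δ₁ h1 δ₂ h2 hne
      have h6 : s < ‖x - z‖ := by rw [h4]; exact h5
      rw [norm_div, hu_far _ h6, div_self]
      linarith
  have hprod1 : ∀ (S : Finset C) (f : C → C), (∀ z ∈ S, ‖f z‖ ≤ 1) → ‖∏ z ∈ S, f z‖ ≤ 1 := by
    intro S f hf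
    rw [norm_prod]
    exact Finset.prod_le_one (fun _ _ => norm_nonneg _) hf
  have hprod2 : ∀ (S : Finset C) (f : C → C), (∀ z ∈ S, ‖f z - 1‖ ≤ ρ) →
      ‖∏ z ∈ S, f z - 1‖ ≤ ρ := by
    intro S f hf
    induction S using Finset.induction_on with
    | empty => simpa using hρ0.le
    | insert a S ha ih =>
      rw [Finset.prod_insert ha]
      have h1 := hf a (Finset.mem_insert_self _ _)
      have h2 := ih fun z hz => hf z (Finset.mem_insert_of_mem hz)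
      have e1 : f a * ∏ z ∈ S, f z - 1 = f a * (∏ z ∈ S, f z - 1) + (f a - 1) := by ring
      rw [e1]
      refine (IsUltrametricDist.norm_add_le_max _ _).trans (max_le ?_ h1)
      rw [norm_mul, norm_one_of_sub hρ h1, one_mul]
      exact h2
  refine ⟨wK, ?_, ?_, ?_⟩
  · rintro P ⟨x, hx, hP⟩
    refine ⟨wC x, ?_, hval δ hδ x hx P hP⟩
    have h1 : ‖b / (x - (δ - b)) - 1‖ ≤ ρ := by
      have hd := hden1 δ hδ x hx
      have e1 : b / (x - (δ - b)) - 1 = -((x - δ) / (x - (δ - b))) := by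
        field_simp
        ring
      have e2 : x - (δ - b) = -((δ - x) - b) := by ring
      have h3 : ‖x - (δ - b)‖ = s := by
        rw [e2, norm_neg]
        exact (hu_same (δ - x) (by rw [norm_sub_rev]; exact hx)).1
      rw [e1, norm_neg, norm_div, h3, div_le_iff₀ hs]
      exact hx.trans hrs
    have h2 : ‖∏ z ∈ Z, ((x - z) / (x - (z + b))) - 1‖ ≤ ρ := by
      refine hprod2 _ _ fun z hz => ?_
      obtain ⟨δ₂, h2, hne, hz2⟩ := hZ z hz
      have hd := hden2 δ hδ x hx z hz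
      have e1 : (x - z) / (x - (z + b)) - 1 = b / (x - (z + b)) := by
        field_simp
        ring
      have h4 := hdist δ hδ x hx δ₂ h2 (Ne.symm hne) z hz2
      have h5 := hsd δ hδ δ₂ h2 (Ne.symm hne)
      have h6 : s < ‖x - z‖ := by rw [h4]; exact h5
      have e2 : x - (z + b) = (x - z) - b := by ring
      rw [e1, norm_div, hb, e2, hu_far _ h6, h4, div_le_iff₀ (by linarith)]
      exact hΔ δ hδ δ₂ h2 (Ne.symm hne)
    have e1 : wC x - 1 = b / (x - (δ - b)) * (∏ z ∈ Z, ((x - z) / (x - (z + b))) - 1) +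
        (b / (x - (δ - b)) - 1) := by
      simp only [wC]; ring
    rw [e1]
    refine (IsUltrametricDist.norm_add_le_max _ _).trans (max_le ?_ h1)
    rw [norm_mul, norm_one_of_sub hρ h1, one_mul]
    exact h2
  · rintro δ' hδ' hne P ⟨x, hx, hP⟩
    refine ⟨wC x, ?_, hval δ' hδ' x hx P hP⟩
    rw [sub_zero]
    have h4 := hdist δ' hδ' x hx δ hδ hne δ (by rw [sub_self, norm_zero]; exact hr.le)
    have h5 := hsd δ' hδ' δ hδ hne
    have e2 : x - (δ - b) = (x - δ) + b := by ring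
    have h6 : ‖x - (δ - b)‖ = ‖x - δ‖ := by
      rw [e2]
      exact norm_add_eq (by rw [hb, h4]; exact h5)
    have h7 : ‖b / (x - (δ - b))‖ ≤ ρ := by
      rw [norm_div, hb, h6, h4, div_le_iff₀ (by linarith)]
      exact hΔ δ' hδ' δ hδ hne
    simp only [wC]
    rw [norm_mul]
    have h8 := hprod1 Z (fun z => (x - z) / (x - (z + b))) (fun z hz => hfac δ' hδ' x hx z hz)
    calc ‖b / (x - (δ - b))‖ * ‖∏ z ∈ Z, (x - z) / (x - (z + b))‖ ≤ ρ * 1 :=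
          mul_le_mul h7 h8 (norm_nonneg _) hρ0.le
      _ = ρ := mul_one _
  · intro P x hx hP
    obtain ⟨δ₂, h2, -, hz2⟩ := hZ x hx
    have h3 := hval δ₂ h2 x hz2 P hP
    have h4 : wC x = 0 := by
      simp only [wC]
      rw [Finset.prod_eq_zero hx (by rw [sub_self, zero_div]), mul_zero]
    rw [h4, Val, map_zero, sub_zero] at h3
    exact h3

omit [IsUltrametricDist C] in
theorem exists_radius (Δ : Finset C) (r : ℝ) (hr : 0 < r)
    (hΔ : ∀ δ ∈ Δ, ∀ δ' ∈ Δ, δ ≠ δ' → r < ‖δ - δ'‖) :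
    ∃ s ρ : ℝ, 0 < s ∧ 0 < ρ ∧ ρ < 1 ∧ r ≤ ρ * s ∧
      ∀ δ ∈ Δ, ∀ δ' ∈ Δ, δ ≠ δ' → s ≤ ρ * ‖δ - δ'‖ := by
  classical
  obtain ⟨D, hD, hD'⟩ : ∃ D : ℝ, r < D ∧ ∀ δ ∈ Δ, ∀ δ' ∈ Δ, δ ≠ δ' → D ≤ ‖δ - δ'‖ := by
    by_cases hne : Δ.offDiag.Nonempty
    · obtain ⟨q, hq, hmin⟩ := Finset.exists_min_image Δ.offDiag (fun q => ‖q.1 - q.2‖) hne
      rw [Finset.mem_offDiag] at hq
      exact ⟨‖q.1 - q.2‖, hΔ _ hq.1 _ hq.2.1 hq.2.2, fun δ hδ δ' hδ' h =>
        hmin (δ, δ') (by rw [Finset.mem_offDiag]; exact ⟨hδ, hδ', h⟩)⟩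
    · refine ⟨r + 1, by linarith, fun δ hδ δ' hδ' h => ?_⟩
      exact absurd ⟨(δ, δ'), by rw [Finset.mem_offDiag]; exact ⟨hδ, hδ', h⟩⟩ hne
  have hD0 : 0 < D := hr.trans hD
  have h1 : Real.sqrt (r / D) * Real.sqrt (r * D) = r := by
    rw [← Real.sqrt_mul (by positivity)]
    have : r / D * (r * D) = r ^ 2 := by field_simp
    rw [this, Real.sqrt_sq hr.le]
  have h2 : Real.sqrt (r / D) * D = Real.sqrt (r * D) := by
    have h3 : D = Real.sqrt (D ^ 2) := (Real.sqrt_sq hD0.le).symm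
    conv_lhs => rw [h3]
    rw [← Real.sqrt_mul (by positivity)]
    congr 1
    rw [Real.sqrt_sq hD0.le]
    field_simp
  refine ⟨Real.sqrt (r * D), Real.sqrt (r / D), by positivity, by positivity, ?_, h1.ge, ?_⟩
  · rw [Real.sqrt_lt' one_pos, one_pow, div_lt_one hD0]
    exact hD
  · intro δ hδ δ' hδ' hne
    rw [← h2]
    exact mul_le_mul_of_nonneg_left (hD' δ hδ δ' hδ' hne) (Real.sqrt_nonneg _)

end union

end P025H802
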