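import Vale.Agent.P025.R2.H802.PowDisc

/-!
# Values of functions at places (P025, S4 of G-START)
-/

open Polynomial Filter Topology

universe u

namespace P025H802

open Vale.Agent.P019P P025H373 P025H621

section val

variable {C K : Type u} [NormedField C] [Field K] [Algebra C K] [CFF C K]

/-- `h` has the value `c` at `P` -/
def Val (P : Plk C K) (h : K) (c : C) : Prop := h - algebraMap C K c ∈ Mge P 1

theorem inBall_iff {P : Plk C K} {z : K} {a : C} {r : ℝ} :
    InBall P z a r ↔ ∃ c, ‖c - a‖ ≤ r ∧ Val P z c := Iff.rfl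

theorem Val.inBall {P : Plk C K} {z : K} {c a : C} {r : ℝ} (h : Val P z c) (hr : ‖c - a‖ ≤ r) :
    InBall P z a r := ⟨c, hr, h⟩

theorem Val.norm_le {P : Plk C K} {z : K} {c a : C} {r : ℝ} (h : Val P z c)
    (hr : InBall P z a r) : ‖c - a‖ ≤ r := by
  obtain ⟨c', hc', hv⟩ := hr
  rwa [val_unique h hv]

theorem Val.mem {P : Plk C K} {z : K} {c : C} (h : Val P z c) : z ∈ Mge P 0 := mem_zero_of_val h

theorem Val.const (P : Plk C K) (c : C) : Val P (algebraMap C K c) c := by
  rw [Val, sub_self]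
  exact zero_mem _

theorem Val.one (P : Plk C K) : Val P (1 : K) 1 := by
  have := Val.const (K := K) P 1
  rwa [map_one] at this

theorem Val.zero (P : Plk C K) : Val P (0 : K) 0 := by
  have := Val.const (K := K) P 0
  rwa [map_zero] at this

theorem Val.add {P : Plk C K} {y z : K} {c d : C} (hy : Val P y c) (hz : Val P z d) :
    Val P (y + z) (c + d) := by
  have := Submodule.add_mem _ hy hz
  have e : y + z - (algebraMap C K c + algebraMap C K d) =
      y - algebraMap C K c + (z - algebraMap C K d) := by ring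
  rw [Val, map_add, e]
  exact this

theorem Val.neg {P : Plk C K} {y : K} {c : C} (hy : Val P y c) : Val P (-y) (-c) := by
  have := Submodule.neg_mem _ hy
  have e : -y - -algebraMap C K c = -(y - algebraMap C K c) := by ring
  rw [Val, map_neg, e]
  exact this

theorem Val.sub {P : Plk C K} {y z : K} {c d : C} (hy : Val P y c) (hz : Val P z d) :
    Val P (y - z) (c - d) := by
  rw [sub_eq_add_neg, sub_eq_add_neg]
  exact hy.add hz.neg

theorem Val.mul {P : Plk C K} {y z : K} {c d : C} (hy : Val P y c) (hz : Val P z d) :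
    Val P (y * z) (c * d) := by
  have h1 := mul_mem_Mge hy.mem hz
  have h2 := Submodule.smul_mem (Mge P 1) d hy
  rw [zero_add] at h1
  rw [Algebra.smul_def] at h2
  have h3 := Submodule.add_mem _ h1 h2
  have e : y * z - algebraMap C K c * algebraMap C K d = y * (z - algebraMap C K d) +
      algebraMap C K d * (y - algebraMap C K c) := by ring
  rw [Val, map_mul, e]
  exact h3

theorem Val.pow {P : Plk C K} {y : K} {c : C} (hy : Val P y c) (n : ℕ) : Val P (y ^ n) (c ^ n) := by
  induction n with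
  | zero => rw [pow_zero, pow_zero]; exact Val.one P
  | succ n ih => rw [pow_succ, pow_succ]; exact ih.mul hy

theorem Val.sum {P : Plk C K} {ι : Type*} (s : Finset ι) {y : ι → K} {c : ι → C}
    (h : ∀ i ∈ s, Val P (y i) (c i)) : Val P (∑ i ∈ s, y i) (∑ i ∈ s, c i) := by
  classical
  induction s using Finset.induction_on with
  | empty => simpa using Val.zero P
  | insert a s ha ih =>
    rw [Finset.sum_insert ha, Finset.sum_insert ha]
    exact (h a (Finset.mem_insert_self _ _)).add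
      (ih fun i hi => h i (Finset.mem_insert_of_mem hi))

theorem Val.prod {P : Plk C K} {ι : Type*} (s : Finset ι) {y : ι → K} {c : ι → C}
    (h : ∀ i ∈ s, Val P (y i) (c i)) : Val P (∏ i ∈ s, y i) (∏ i ∈ s, c i) := by
  classical
  induction s using Finset.induction_on with
  | empty => simpa using Val.one P
  | insert a s ha ih =>
    rw [Finset.prod_insert ha, Finset.prod_insert ha]
    exact (h a (Finset.mem_insert_self _ _)).mul
      (ih fun i hi => h i (Finset.mem_insert_of_mem hi))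

theorem Val.unique {P : Plk C K} {z : K} {b b' : C} (h : Val P z b) (h' : Val P z b') : b = b' :=
  val_unique h h'

theorem Val.ne_zero {P : Plk C K} {y : K} {c : C} (hy : Val P y c) (hc : c ≠ 0) : y ≠ 0 := by
  rintro rfl
  exact hc (hy.unique (Val.zero P))

theorem Val.inv {P : Plk C K} {y : K} {c : C} (hy : Val P y c) (hc : c ≠ 0) :
    Val P y⁻¹ c⁻¹ := by
  have hcK : algebraMap C K c ≠ 0 := by rwa [Ne, map_eq_zero]
  have h1 : y * (algebraMap C K c)⁻¹ - 1 ∈ Mge P 1 := by
    have := Submodule.smul_mem (Mge P 1) c⁻¹ hy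
    rw [Algebra.smul_def, map_inv₀, mul_sub, inv_mul_cancel₀ hcK, mul_comm] at this
    exact this
  have h2 := (unit_inv h1).2
  have h3 := Submodule.smul_mem (Mge P 1) c⁻¹ h2
  rw [Algebra.smul_def, map_inv₀, mul_inv, inv_inv, mul_sub, mul_one,
    mul_comm _ (algebraMap C K c), ← mul_assoc, inv_mul_cancel₀ hcK, one_mul] at h3
  rw [Val, map_inv₀]
  exact h3

theorem Val.div {P : Plk C K} {y z : K} {c d : C} (hy : Val P y c) (hz : Val P z d)
    (hd : d ≠ 0) : Val P (y / z) (c / d) := by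
  rw [div_eq_mul_inv, div_eq_mul_inv]
  exact hy.mul (hz.inv hd)

theorem exists_Val (P : Plk C K) {z : K} (h : z ∈ Mge P 0) : ∃ b : C, Val P z b := exists_val P h

theorem exists_place_over {t : K} (ht : ∀ c : C, t ≠ algebraMap C K c) (x : C) :
    ∃ P : Plk C K, Val P t x := by
  obtain ⟨P, hP⟩ := exists_zero (k := C) (nc_sub ht x)
  exact ⟨P, Or.inr (by omega)⟩

/-- powers of an element vanishing at the poles of `G` kill the poles -/
theorem exists_pow_regular (w G : K) (U : Set (Plk C K))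
    (h : ∀ P ∈ U, w ∈ Mge P 0 ∧ (G ∈ Mge P 0 ∨ w ∈ Mge P 1)) :
    ∃ m : ℕ, ∀ P ∈ U, w ^ m * G ∈ Mge P 0 := by
  classical
  by_cases hG : G = 0
  · exact ⟨0, fun P _ => by rw [hG, mul_zero]; exact zero_mem _⟩
  have hfin := dv_finite (k := C) hG
  refine ⟨∑ P ∈ hfin.toFinset, (ord P G).natAbs, fun P hP => ?_⟩
  obtain ⟨h1, h2⟩ := h P hP
  set m := ∑ P ∈ hfin.toFinset, (ord P G).natAbs with hm
  have hw0 : w ^ m ∈ Mge P 0 := by
    have : ∀ n : ℕ, w ^ n ∈ Mge P 0 := by
      intro n
      induction n with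
      | zero => right; rw [pow_zero, ord_one]
      | succ n ih => rw [pow_succ]; have := mul_mem_Mge ih h1; rwa [add_zero] at this
    exact this m
  rcases h2 with h2 | h2
  · have := mul_mem_Mge hw0 h2
    rwa [add_zero] at this
  · by_cases h3 : ord P G = 0
    · have := mul_mem_Mge hw0 (w := G) (n := 0) (Or.inr (le_of_eq h3.symm))
      rwa [add_zero] at this
    · have h4 : (ord P G).natAbs ≤ m :=
        Finset.single_le_sum (f := fun P => (ord P G).natAbs) (fun _ _ => Nat.zero_le _)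
          (by rw [Set.Finite.mem_toFinset]; exact h3)
      have h5 : w ^ m ∈ Mge P m := by
        have : ∀ n : ℕ, w ^ n ∈ Mge P n := by
          intro n
          induction n with
          | zero => right; rw [pow_zero, ord_one]; simp
          | succ n ih => rw [pow_succ]; have := mul_mem_Mge ih h2; push_cast; exact this
        exact this m
      have h6 := mul_mem_Mge h5 (w := G) (n := ord P G) (Or.inr le_rfl)
      exact Mge_mono P (by omega) h6

end val

section ultra

variable {C K : Type u} [NormedField C] [IsUltrametricDist C] [Field K] [Algebra C K] [CFF C K]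

theorem InBall_add {P : Plk C K} {y z : K} {η : ℝ} (hy : InBall P y 0 η) (hz : InBall P z 0 η) :
    InBall P (y + z) 0 η := by
  obtain ⟨c, hc, hy⟩ := hy
  obtain ⟨d, hd, hz⟩ := hz
  refine ⟨c + d, ?_, Val.add hy hz⟩
  rw [sub_zero] at hc hd ⊢
  exact (IsUltrametricDist.norm_add_le_max c d).trans (max_le hc hd)

theorem InBall_sum {P : Plk C K} {ι : Type*} (s : Finset ι) {y : ι → K} {η : ℝ} (hη : 0 ≤ η)
    (h : ∀ i ∈ s, InBall P (y i) 0 η) : InBall P (∑ i ∈ s, y i) 0 η := by
  classical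
  induction s using Finset.induction_on with
  | empty => exact ⟨0, by simpa using hη, by simpa using Val.zero P⟩
  | insert a s ha ih =>
    rw [Finset.sum_insert ha]
    exact InBall_add (h a (Finset.mem_insert_self _ _))
      (ih fun i hi => h i (Finset.mem_insert_of_mem hi))

theorem InBall_mul {P : Plk C K} {y z : K} {η ζ : ℝ} (hy : InBall P y 0 η) (hz : InBall P z 0 ζ) :
    InBall P (y * z) 0 (η * ζ) := by
  obtain ⟨c, hc, hy⟩ := hy
  obtain ⟨d, hd, hz⟩ := hz
  refine ⟨c * d, ?_, Val.mul hy hz⟩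
  rw [sub_zero] at hc hd ⊢
  rw [norm_mul]
  exact mul_le_mul hc hd (norm_nonneg _) ((norm_nonneg _).trans hc)

theorem norm_one_of_sub {c : C} {ε : ℝ} (hε : ε < 1) (hc : ‖c - 1‖ ≤ ε) : ‖c‖ = 1 := by
  have h1 : ‖c - 1‖ < ‖(1 : C)‖ := by rw [norm_one]; exact hc.trans_lt hε
  have h2 := norm_add_eq h1
  rwa [add_sub_cancel, norm_one] at h2

theorem InBall_one_mul {P : Plk C K} {y z : K} {ε : ℝ} (hε : ε < 1) (hy : InBall P y 1 ε)
    (hz : InBall P z 1 ε) : InBall P (y * z) 1 ε := by
  obtain ⟨c, hc, hy⟩ := hy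
  obtain ⟨d, hd, hz⟩ := hz
  refine ⟨c * d, ?_, Val.mul hy hz⟩
  have e1 : c * d - 1 = c * (d - 1) + (c - 1) := by ring
  rw [e1]
  refine (IsUltrametricDist.norm_add_le_max _ _).trans (max_le ?_ hc)
  rw [norm_mul, norm_one_of_sub hε hc, one_mul]
  exact hd

theorem InBall_one_inv {P : Plk C K} {y : K} {ε : ℝ} (hε : ε < 1) (hy : InBall P y 1 ε) :
    InBall P y⁻¹ 1 ε := by
  obtain ⟨c, hc, hy⟩ := hy
  have h1 := norm_one_of_sub hε hc
  have hc0 : c ≠ 0 := by
    rintro rfl
    rw [norm_zero] at h1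
    exact zero_ne_one h1
  refine ⟨c⁻¹, ?_, Val.inv hy hc0⟩
  have e1 : c⁻¹ - 1 = -(c⁻¹ * (c - 1)) := by
    rw [mul_sub, inv_mul_cancel₀ hc0, mul_one]; ring
  rw [e1, norm_neg, norm_mul, norm_inv, h1, inv_one, one_mul]
  exact hc

theorem InBall_one_pow {P : Plk C K} {y : K} {ε : ℝ} (hε0 : 0 ≤ ε) (hε : ε < 1)
    (hy : InBall P y 1 ε) (n : ℕ) : InBall P (y ^ n) 1 ε := by
  induction n with
  | zero => exact ⟨1, by simpa using hε0, by simpa using Val.one P⟩
  | succ n ih => rw [pow_succ]; exact InBall_one_mul hε ih hy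

/-- regular functions are bounded on discs -/
theorem exists_bound [IsAlgClosed C] (t : K) (a : C) (r : ℝ) (h : K)
    (hco : HasCoeffs (C := C) t h) (hh : ∀ P ∈ Disc t a r, h ∈ Mge P 0) :
    ∃ B : ℝ, 1 ≤ B ∧ ∀ P ∈ Disc t a r, InBall P h 0 B := by
  classical
  obtain ⟨N, c, hc⟩ := hco
  by_cases hr : 0 ≤ r
  swap
  · refine ⟨1, le_rfl, ?_⟩
    rintro P ⟨b, hb, -⟩
    exact absurd ((norm_nonneg _).trans hb) hr
  have hreg : ∀ b : C, ‖b - a‖ ≤ r → ∀ P : Plk C K, t - algebraMap C K b ∈ Mge P 1 →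
      h ∈ Mge P 0 := fun b hb P hP => hh P ⟨b, hb, hP⟩
  have hroot : ∀ i, ∀ β, (c i).denom.IsRoot β → r < ‖β - a‖ := by
    intro i β hβ
    by_contra hle
    rw [not_lt] at hle
    exact (hc β (hreg β hle)).1 i hβ
  have hda : ∀ i, 0 < ‖(c i).denom.eval a‖ := fun i =>
    norm_pos_iff.mpr ((hc a (hreg a (by rw [sub_self, norm_zero]; exact hr))).1 i)
  have hnum : ∀ (D : C[X]) (x : C), ‖x - a‖ ≤ r →
      ‖D.eval x‖ ≤ ∑ j ∈ Finset.range (D.natDegree + 1), ‖D.coeff j‖ * (‖a‖ + r) ^ j := by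
    intro D x hx
    rw [eval_eq_sum_range]
    refine (norm_sum_le _ _).trans (Finset.sum_le_sum fun j _ => ?_)
    rw [norm_mul, norm_pow]
    refine mul_le_mul_of_nonneg_left (pow_le_pow_left₀ (norm_nonneg _) ?_ _) (norm_nonneg _)
    have e1 : x = a + (x - a) := by ring
    rw [e1]
    exact (norm_add_le _ _).trans (by linarith)
  set B : ℝ := 1 + ∑ i, (∑ j ∈ Finset.range ((c i).num.natDegree + 1),
    ‖(c i).num.coeff j‖ * (‖a‖ + r) ^ j) / ‖(c i).denom.eval a‖ with hB
  have hterm : ∀ i, 0 ≤ (∑ j ∈ Finset.range ((c i).num.natDegree + 1),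
    ‖(c i).num.coeff j‖ * (‖a‖ + r) ^ j) / ‖(c i).denom.eval a‖ := by
    intro i
    refine div_nonneg (Finset.sum_nonneg fun j _ => ?_) (norm_nonneg _)
    have := norm_nonneg a
    positivity
  have hB1 : 1 ≤ B := by
    rw [hB]
    have := Finset.sum_nonneg (s := Finset.univ) fun i _ => hterm i
    linarith
  refine ⟨B, hB1, ?_⟩
  rintro P ⟨b, hb, hPb⟩
  refine ((hc b (hreg b hb)).2 B (by linarith)).2 (fun i => ?_) P hPb
  have h1 : ‖(c i).eval (RingHom.id C) b‖ ≤ B := by
    rw [ratFunc_eval, norm_div, norm_eval_const (hroot i) hb]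
    refine (div_le_div_of_nonneg_right (hnum _ b hb) (norm_nonneg _)).trans ?_
    rw [hB]
    have := Finset.single_le_sum (f := fun i => (∑ j ∈ Finset.range ((c i).num.natDegree + 1),
      ‖(c i).num.coeff j‖ * (‖a‖ + r) ^ j) / ‖(c i).denom.eval a‖) (fun i _ => hterm i)
      (Finset.mem_univ i)
    linarith
  refine h1.trans ?_
  rw [pow_succ]
  exact le_mul_of_one_le_left (by linarith) (one_le_pow₀ hB1)

end ultra

end P025H802
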